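import Vale.Agent.P162.H72.Lower
import Vale.Agent.P162.H474.Main

/-!
# P162, stage 1: `t_mix (2 ^ (d + 1)) ≤ 256 (d + 1) ^ 2`, from the level bound (part C)
-/

open Finset Equiv
open scoped InnerProductSpace
open Vale.Agent.P162.H474 (X P T R card_X sd norm_T_pow_sq_le)

namespace Vale.Agent.P162.H72

/-- The form in which part C is used. -/
def LevelBound (d : ℕ) : Prop := ∀ c : ℝ, 0 ≤ c →
  (Fintype.card (Perm (X d)) : ℝ) * ⟪(EuclideanSpace.single 1 1 : EuclideanSpace ℝ (Perm (X d))),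
      NormedSpace.exp (-(c • R (reg (Perm (X d))))) (EuclideanSpace.single 1 1)⟫_ℝ - 1 ≤
    ∑ k ∈ Finset.Icc 1 (2 ^ d), (((2 : ℝ) ^ d) ^ 2 * Real.exp (-(c * 2 ^ d / 2))) ^ k

theorem geom_Icc_le {x : ℝ} (h0 : 0 ≤ x) (h1 : x ≤ 1 / 8) (n : ℕ) :
    ∑ k ∈ Finset.Icc 1 n, x ^ k ≤ 1 / 4 := by
  have h2 : ∀ n : ℕ, ∑ k ∈ Finset.Icc 1 n, x ^ k ≤ (1 / 4) * (1 - x ^ n) := by
    intro n
    induction n with
    | zero => simp
    | succ n ih =>
      rw [Finset.sum_Icc_succ_top (by omega)]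
      have h3 : (0 : ℝ) ≤ x ^ n := by positivity
      rw [pow_succ]
      nlinarith
  have h4 := h2 n
  have h5 : (0 : ℝ) ≤ x ^ n := by positivity
  linarith

theorem num_le (d : ℕ) : ((2 : ℝ) ^ (d + 1)) ^ 2 * Real.exp (-(4 * (d + 1 : ℕ))) ≤ 1 / 8 := by
  have h1 : (2.7182818283 : ℝ) < Real.exp 1 := Real.exp_one_gt_d9
  have h2 : (32 : ℝ) ≤ Real.exp 4 := by
    have : Real.exp 4 = Real.exp 1 ^ 4 := by rw [← Real.exp_nat_mul]; norm_num
    rw [this]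
    calc (32 : ℝ) ≤ 2.7 ^ 4 := by norm_num
      _ ≤ Real.exp 1 ^ 4 := by gcongr; linarith
  have h3 : Real.exp (-(4 * (d + 1 : ℕ))) = (Real.exp 4)⁻¹ ^ (d + 1) := by
    rw [← Real.exp_neg, ← Real.exp_nat_mul]
    congr 1
    ring
  have h4 : ((2 : ℝ) ^ (d + 1)) ^ 2 = 4 ^ (d + 1) := by
    rw [← pow_mul, mul_comm, pow_mul]; norm_num
  rw [h3, h4, ← mul_pow]
  have h5 : 4 * (Real.exp 4)⁻¹ ≤ 1 / 8 := by
    rw [← div_eq_mul_inv, div_le_div_iff₀ (by positivity) (by norm_num)]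
    linarith
  have h6 : 0 ≤ 4 * (Real.exp 4)⁻¹ := by positivity
  calc (4 * (Real.exp 4)⁻¹) ^ (d + 1) ≤ (1 / 8) ^ (d + 1) := by gcongr
    _ ≤ (1 / 8) ^ 1 := pow_le_pow_of_le_one (by norm_num) (by norm_num) (by omega)
    _ = 1 / 8 := by norm_num

theorem tv_le_of_levelBound (d : ℕ) (hC : LevelBound (d + 1)) :
    tv (convPow (thorpLaw (2 ^ d)) ((d + 1) * (256 * (d + 1))))
      (unif (Perm (Fin (2 * 2 ^ d)))) ≤ 1 / 4 ∧
    tmix (2 ^ d) ≤ (d + 1) * (256 * (d + 1)) := by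
  apply tmix_le
  have h1 := norm_T_pow_sq_le (d + 1) (reg (Perm (X (d + 1)))) (fun g v => norm_reg g v)
    (256 * (d + 1)) (EuclideanSpace.single 1 1)
  have h2 := hC ((256 * (d + 1) : ℕ) * sd (d + 1)) (by
    have := H474.sd_pos (d + 1)
    positivity)
  have h3 : ∑ k ∈ Finset.Icc 1 (2 ^ (d + 1)), (((2 : ℝ) ^ (d + 1)) ^ 2 *
      Real.exp (-((256 * (d + 1) : ℕ) * sd (d + 1) * 2 ^ (d + 1) / 2))) ^ k ≤ 1 / 4 := by
    apply geom_Icc_le (by positivity)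
    refine le_trans ?_ (num_le d)
    apply mul_le_mul_of_nonneg_left _ (by positivity)
    apply Real.exp_le_exp.2
    rw [neg_le_neg_iff]
    have h4 : (1 : ℝ) / 32 ≤ sd (d + 1) * 2 ^ (d + 1) := by
      rw [sd]
      have h5 : ((1 : ℝ) / 2) ^ (d + 1) * 2 ^ (d + 1) = 1 := by
        rw [← mul_pow]; norm_num
      have h6 : (0 : ℝ) ≤ (1 / 2) ^ (d + 1) := by positivity
      calc (1 : ℝ) / 32 ≤ 1 / 32 * (1 + (1 / 2) ^ (d + 1)) := by linarith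
        _ = 1 / 32 * (1 + (1 / 2) ^ (d + 1)) * ((1 / 2) ^ (d + 1) * 2 ^ (d + 1)) := by
          rw [h5, mul_one]
        _ = _ := by ring
    push_cast
    have h7 : (0 : ℝ) ≤ (d : ℝ) + 1 := by positivity
    nlinarith
  have h8 : (0 : ℝ) ≤ Fintype.card (Perm (X (d + 1))) := by positivity
  have h9 := mul_le_mul_of_nonneg_left h1 h8
  linarith

end Vale.Agent.P162.H72
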