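import Vale.Agent.P162.H72.Finite

/-!
# P162: final assembly (from an upper bound for large decks)
-/

open Finset Equiv

namespace Vale.Agent.P162.H72

/-- The mixing time is attained. -/
theorem isLeast_tmix (m : ℕ) (hm : 1 ≤ m) :
    IsLeast {t : ℕ | tv (convPow (thorpLaw m) t) (unif (Perm (Fin (2 * m)))) ≤ 1 / 4} (tmix m) :=
  ⟨Nat.sInf_mem (s := {t : ℕ | tv (convPow (thorpLaw m) t) (unif (Perm (Fin (2 * m)))) ≤ 1 / 4})
    (exists_mix m hm), fun _ ht => Nat.sInf_le ht⟩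

/-- Every even deck: from an `O (log n)` bound for large decks. -/
theorem assemble_gen (C0 : ℝ) (m0 : ℕ)
    (h : ∀ m, m0 ≤ m → 1 ≤ m → ∃ L : ℕ, (L : ℝ) ≤ C0 * Real.log (2 * m : ℕ) ∧
      tv (convPow (thorpLaw m) L) (unif (Perm (Fin (2 * m)))) ≤ 1 / 4) :
    ∃ c C : ℝ, 0 < c ∧ 0 < C ∧ ∀ m : ℕ, 1 ≤ m →
      IsLeast {t : ℕ | tv (convPow (thorpLaw m) t) (unif (Perm (Fin (2 * m)))) ≤ 1 / 4}
        (tmix m) ∧
      c * Real.log (2 * m : ℕ) ≤ tmix m ∧ (tmix m : ℝ) ≤ C * Real.log (2 * m : ℕ) := by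
  set S : ℝ := ∑ m ∈ Finset.range m0, (tmix m : ℝ) with hS
  have hS0 : 0 ≤ S := sum_nonneg fun _ _ => Nat.cast_nonneg _
  have hl2 : 0 < Real.log 2 := Real.log_pos (by norm_num)
  refine ⟨1 / (2 * Real.log 2), |C0| + S / Real.log 2 + 1, by positivity, by positivity, ?_⟩
  intro m hm
  obtain ⟨t, ht⟩ := exists_mix m hm
  have h1 := log_le_tmix m t hm ht
  have h2 : Real.log 2 ≤ Real.log (2 * m : ℕ) := by
    apply Real.log_le_log (by norm_num)
    have : 2 ≤ 2 * m := by omega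
    exact_mod_cast this
  refine ⟨isLeast_tmix m hm, ?_, ?_⟩
  · rw [div_mul_eq_mul_div, one_mul, div_le_iff₀ (by positivity)]
    linarith
  · rcases Nat.lt_or_ge m m0 with hlt | hge
    · have h3 : (tmix m : ℝ) ≤ S :=
        single_le_sum (f := fun m => (tmix m : ℝ)) (fun _ _ => Nat.cast_nonneg _)
          (mem_range.2 hlt)
      have h4 : S ≤ S / Real.log 2 * Real.log (2 * m : ℕ) := by
        rw [div_mul_eq_mul_div, le_div_iff₀ hl2]
        exact mul_le_mul_of_nonneg_left h2 hS0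
      have h5 : 0 ≤ |C0| * Real.log (2 * m : ℕ) := by positivity
      nlinarith
    · obtain ⟨L, hL1, hL2⟩ := h m hge hm
      have h3 : tmix m ≤ L := Nat.sInf_le hL2
      have h4 : (tmix m : ℝ) ≤ L := by exact_mod_cast h3
      have h5 : C0 * Real.log (2 * m : ℕ) ≤ |C0| * Real.log (2 * m : ℕ) :=
        mul_le_mul_of_nonneg_right (le_abs_self C0) (by linarith)
      have h6 : 0 ≤ S / Real.log 2 * Real.log (2 * m : ℕ) := by positivity
      nlinarith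

/-- Decks of `2 ^ (d + 1)` cards: from an `O (d)` bound for large `d`. -/
theorem assemble_cube (r d0 : ℕ)
    (h : ∀ d, d0 ≤ d →
      tv (convPow (thorpLaw (2 ^ d)) ((d + 1) * r)) (unif (Perm (Fin (2 * 2 ^ d)))) ≤ 1 / 4) :
    ∃ C : ℕ, ∀ d : ℕ,
      IsLeast {t : ℕ | tv (convPow (thorpLaw (2 ^ d)) t) (unif (Perm (Fin (2 * 2 ^ d)))) ≤ 1 / 4}
        (tmix (2 ^ d)) ∧ d + 1 ≤ tmix (2 ^ d) ∧ tmix (2 ^ d) ≤ C * (d + 1) := by
  refine ⟨r + ∑ d ∈ Finset.range d0, tmix (2 ^ d), fun d => ?_⟩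
  have hm : 1 ≤ 2 ^ d := Nat.one_le_two_pow
  obtain ⟨t, ht⟩ := exists_mix (2 ^ d) hm
  refine ⟨isLeast_tmix _ hm, le_tmix d t ht, ?_⟩
  rcases Nat.lt_or_ge d d0 with hlt | hge
  · have h3 : tmix (2 ^ d) ≤ ∑ d ∈ Finset.range d0, tmix (2 ^ d) :=
      single_le_sum (f := fun d => tmix (2 ^ d)) (fun _ _ => Nat.zero_le _) (mem_range.2 hlt)
    nlinarith [Nat.zero_le (r * (d + 1)), Nat.zero_le ((∑ d ∈ Finset.range d0, tmix (2 ^ d)) * d)]
  · have h3 : tmix (2 ^ d) ≤ (d + 1) * r := Nat.sInf_le (h d hge)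
    nlinarith [Nat.zero_le ((∑ d ∈ Finset.range d0, tmix (2 ^ d)) * (d + 1))]

end Vale.Agent.P162.H72
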