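import Vale.Agent.P162.Statement
import Vale.Agent.P162.H72.Final

/-!
# P162: the definitions of `Statement.lean` agree with those of `Defs.lean`
-/

open Finset Equiv

namespace Vale.Agent.P162.H72

theorem isShuffle_iff (m : ℕ) (c : Fin m → Bool) (σ : Perm (Fin (2 * m))) :
    Statement.IsShuffle m c σ ↔ shuffle m c = σ := by
  constructor
  · intro h
    ext1 x
    apply Fin.ext
    by_cases hx : (x : ℕ) < m
    · rw [shuffle_val_lt m c x hx]
      exact (h ⟨x, hx⟩).1.symm
    · rw [shuffle_val_ge m c x hx]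
      have h1 := (h ⟨x - m, by omega⟩).2
      have h2 : (⟨m + ((⟨x - m, by omega⟩ : Fin m) : ℕ), by simp; omega⟩ : Fin (2 * m)) = x := by
        apply Fin.ext
        simp
        omega
      rw [h2] at h1
      exact h1.symm
  · rintro rfl i
    refine ⟨?_, ?_⟩
    · rw [shuffle_val_lt m c _ i.2]
    · have h1 : ¬ (((⟨m + i, by omega⟩ : Fin (2 * m)) : ℕ) < m) := by simp
      rw [shuffle_val_ge m c _ h1]
      have h2 : (⟨((⟨m + i, by omega⟩ : Fin (2 * m)) : ℕ) - m, by simp⟩ : Fin m) = i := by
        apply Fin.ext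
        simp
      rw [h2]
      simp

theorem shuffleLaw_eq (m : ℕ) : Statement.shuffleLaw m = thorpLaw m := by
  funext σ
  rw [Statement.shuffleLaw, thorpLaw]
  congr 2
  simp only [isShuffle_iff]
  rw [Nat.card_eq_fintype_card, Fintype.card_subtype]

theorem convPower_eq {G : Type} [Group G] [Fintype G] [DecidableEq G] (μ : G → ℝ) (t : ℕ) :
    Statement.convPower μ t = convPow μ t := by
  induction t with
  | zero => rfl
  | succ t ih =>
    funext g
    rw [Statement.convPower, ih]
    rfl

theorem distUniform_eq {G : Type} [Fintype G] (μ : G → ℝ) :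
    Statement.distUniform μ = tv μ (unif G) := rfl

theorem mixedTimes_eq (m : ℕ) : Statement.mixedTimes m =
    {t : ℕ | tv (convPow (thorpLaw m) t) (unif (Perm (Fin (2 * m)))) ≤ 1 / 4} := by
  ext t
  rw [Statement.mixedTimes, Set.mem_ofPred_eq, Set.mem_ofPred_eq, shuffleLaw_eq, convPower_eq,
    distUniform_eq]

theorem mixTime_eq (m : ℕ) : Statement.mixTime m = tmix m := by
  rw [Statement.mixTime, mixedTimes_eq, tmix]

end Vale.Agent.P162.H72
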