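import Vale.Agent.P162.H72.Bridge

/-!
# P162: general tools for the final step

* `tv_le_of_test`: a one-sided test-function bound gives the total variation bound;
* `sum_convPow_thorp`: the law of `L` shuffles of `2 * m` cards as an average over coins;
* `lower_gen`: the counting lower bound for every even deck.
-/

open Finset Equiv

namespace Vale.Agent.P162.H72

section group
variable {G : Type*} [Fintype G]

/-- A one-sided bound for all test functions with values in `[0, 1]` bounds the total variation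
distance. -/
theorem tv_le_of_test (μ ν : G → ℝ) (hμ : ∑ g, μ g = ∑ g, ν g) (ε : ℝ)
    (h : ∀ F : G → ℝ, (∀ g, 0 ≤ F g) → (∀ g, F g ≤ 1) → ∑ g, μ g * F g ≤ ∑ g, ν g * F g + ε) :
    tv μ ν ≤ ε := by
  classical
  have h1 := h (fun g => if ν g ≤ μ g then 1 else 0) (fun g => by positivity)
    (fun g => by split <;> norm_num)
  have h2 : ∀ g, |μ g - ν g| = 2 * (μ g * (if ν g ≤ μ g then 1 else 0) -
      ν g * (if ν g ≤ μ g then 1 else 0)) - (μ g - ν g) := by
    intro g
    by_cases hg : ν g ≤ μ g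
    · rw [if_pos hg, abs_of_nonneg (by linarith)]; ring
    · rw [if_neg hg, abs_of_neg (by linarith)]; ring
  rw [tv]
  simp only [h2]
  rw [sum_sub_distrib, ← Finset.mul_sum, sum_sub_distrib, sum_sub_distrib, hμ]
  linarith

theorem sum_unif_mul (F : G → ℝ) : ∑ g, unif G g * F g = S2.avg F := by
  simp only [unif, S2.avg]
  rw [← Finset.mul_sum]
  ring

theorem sum_unif [Nonempty G] : ∑ g, unif G g = 1 := by
  simp [unif]

/-- The form in which the upper bound is used. -/
theorem tv_unif_le_of_test [Nonempty G] (μ : G → ℝ) (hμ : ∑ g, μ g = 1) (ε : ℝ)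
    (h : ∀ F : G → ℝ, (∀ g, 0 ≤ F g) → (∀ g, F g ≤ 1) → ∑ g, μ g * F g ≤ S2.avg F + ε) :
    tv μ (unif G) ≤ ε := by
  apply tv_le_of_test μ (unif G) (by rw [hμ, sum_unif])
  intro F h0 h1
  rw [sum_unif_mul]
  exact h F h0 h1

end group

/-- `L` Thorp shuffles of `2 * m` cards with coins `w`. -/
def spos (m : ℕ) : ∀ L : ℕ, (Fin L → Fin m → Bool) → Perm (Fin (2 * m))
  | 0, _ => 1
  | L + 1, w => shuffle m (w (Fin.last L)) * spos m L (Fin.init w)

/-- The law of `L` shuffles is an average over the coins. -/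
theorem sum_convPow_thorp (m L : ℕ) (F : Perm (Fin (2 * m)) → ℝ) :
    ∑ g, convPow (thorpLaw m) L g * F g =
      S2.avg fun w : Fin L → Fin m → Bool => F (spos m L w) := by
  induction L generalizing F with
  | zero =>
    simp only [convPow, ite_mul, one_mul, zero_mul, sum_ite_eq', mem_univ, if_true, spos]
    rw [S2.avg_const]
  | succ L ih =>
    have h1 : ∑ g, convPow (thorpLaw m) (L + 1) g * F g =
        ∑ h, thorpLaw m h * ∑ g, convPow (thorpLaw m) L g * F (h * g) := by
      simp only [convPow, conv, Finset.sum_mul, Finset.mul_sum]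
      rw [sum_comm]
      refine sum_congr rfl fun h _ => ?_
      refine Fintype.sum_equiv (Equiv.mulLeft h⁻¹) _ _ fun g => ?_
      simp [mul_assoc]
    rw [h1]
    simp only [ih]
    have h2 := sum_thorpLaw_smul m (fun h => S2.avg fun w : Fin L → Fin m → Bool => F (h * spos m L w))
    simp only [smul_eq_mul] at h2
    rw [h2]
    have h3 : (1 : ℝ) / 2 ^ m * ∑ c : Fin m → Bool,
        (S2.avg fun w : Fin L → Fin m → Bool => F (shuffle m c * spos m L w)) =
        S2.avg fun c : Fin m → Bool => S2.avg fun w : Fin L → Fin m → Bool =>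
          F (shuffle m c * spos m L w) := by
      rw [S2.avg, Fintype.card_pi]
      simp
      ring
    rw [h3, ← S2.avg_prod (fun p : (Fin m → Bool) × (Fin L → Fin m → Bool) =>
      F (shuffle m p.1 * spos m L p.2)), ← S2.avg_equiv (Fin.snocEquiv fun _ => Fin m → Bool)]
    congr 1
    funext q
    rw [spos]
    simp [Fin.snocEquiv]

theorem tv_thorp_le_of_test (m L : ℕ) (ε : ℝ)
    (h : ∀ F : Perm (Fin (2 * m)) → ℝ, (∀ g, 0 ≤ F g) → (∀ g, F g ≤ 1) →
      (S2.avg fun w : Fin L → Fin m → Bool => F (spos m L w)) ≤ S2.avg F + ε) :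
    tv (convPow (thorpLaw m) L) (unif (Perm (Fin (2 * m)))) ≤ ε := by
  apply tv_unif_le_of_test _ (sum_convPow _ (sum_thorpLaw m) L)
  intro F h0 h1
  rw [sum_convPow_thorp]
  exact h F h0 h1

theorem sum_posLaw_mul (d : ℕ) [NeZero d] (a L : ℕ) (F : Perm (S2.V d) → ℝ) :
    ∑ g, posLaw d a L g * F g = S2.avg fun w : Fin L → S2.Coin d => F (S2.pos a L w) := by
  simp only [posLaw, ← S2.avg_mul_right]
  rw [← S2.avg_sum]
  congr 1
  funext w
  simp

/-- The form in which the upper bound for `2 ^ (d + 1)` cards is used. -/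
theorem tv_thorp_le_of_cube (d r : ℕ) (ε : ℝ)
    (h : ∀ F : Perm (S2.V (d + 1)) → ℝ, (∀ g, 0 ≤ F g) → (∀ g, F g ≤ 1) →
      (S2.avg fun w : Fin ((d + 1) * r) → S2.Coin (d + 1) => F (S2.pos 0 ((d + 1) * r) w)) ≤
        S2.avg F + ε) :
    tv (convPow (thorpLaw (2 ^ d)) ((d + 1) * r)) (unif (Perm (Fin (2 * 2 ^ d)))) ≤ ε := by
  rw [tv_thorp_eq]
  apply tv_unif_le_of_test _ (sum_posLaw (d + 1) 0 ((d + 1) * r))
  intro F h0 h1
  rw [sum_posLaw_mul]
  exact h F h0 h1

/-- The counting lower bound for every deck of `2 * m` cards. -/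
theorem lower_gen (m t : ℕ) (hm : 1 ≤ m)
    (h : tv (convPow (thorpLaw m) t) (unif (Perm (Fin (2 * m)))) ≤ 1 / 4) :
    2 * m ≤ 2 ^ (2 * t) := by
  have h1 := factorial_le _ _ h
  rcases Nat.lt_or_ge m 2 with hm2 | hm2
  · have hm1 : m = 1 := by omega
    subst hm1
    have ht : t ≠ 0 := by
      rintro rfl
      norm_num [Nat.factorial] at h1
    calc 2 * 1 ≤ 2 ^ 2 := by norm_num
      _ ≤ 2 ^ (2 * t) := Nat.pow_le_pow_right (by norm_num) (by omega)
  · have h2 : m.factorial * (m + 1) ^ m ≤ (2 * m).factorial := by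
      rw [two_mul]
      exact Nat.factorial_mul_pow_le_factorial
    have h5 : 2 ≤ m.factorial := by
      calc 2 = Nat.factorial 2 := rfl
        _ ≤ m.factorial := Nat.factorial_le hm2
    have h6 : 2 * (m + 1) ^ m ≤ m.factorial * (m + 1) ^ m := Nat.mul_le_mul_right _ h5
    have h7 : (m + 1) ^ m < 2 ^ (m * t) := by
      have : 0 < (m + 1) ^ m := by positivity
      omega
    rw [mul_comm m t, pow_mul] at h7
    have h8 : m + 1 < 2 ^ t := lt_of_pow_lt_pow_left₀ m (Nat.zero_le _) h7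
    have h9 : 2 ^ (2 * t) = 2 ^ t * 2 ^ t := by rw [two_mul, pow_add]
    rw [h9]
    nlinarith

/-- The lower bound for the mixing time, in terms of the logarithm. -/
theorem log_le_tmix (m t : ℕ) (hm : 1 ≤ m)
    (h : tv (convPow (thorpLaw m) t) (unif (Perm (Fin (2 * m)))) ≤ 1 / 4) :
    Real.log (2 * m : ℕ) ≤ 2 * Real.log 2 * tmix m := by
  have h1 : tv (convPow (thorpLaw m) (tmix m)) (unif (Perm (Fin (2 * m)))) ≤ 1 / 4 :=
    Nat.sInf_mem (s := {t : ℕ |
      tv (convPow (thorpLaw m) t) (unif (Perm (Fin (2 * m)))) ≤ 1 / 4}) ⟨t, h⟩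
  have h2 := lower_gen m (tmix m) hm h1
  have h3 : ((2 * m : ℕ) : ℝ) ≤ (2 : ℝ) ^ (2 * tmix m) := by exact_mod_cast h2
  have h4 : (0 : ℝ) < ((2 * m : ℕ) : ℝ) := by exact_mod_cast (by omega : 0 < 2 * m)
  have h5 := Real.log_le_log h4 h3
  rw [Real.log_pow] at h5
  push_cast at h5 ⊢
  linarith

end Vale.Agent.P162.H72
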