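import Vale.Agent.P162.S2.Col1
import Vale.Agent.P162.H72.Gen

/-!
# P162: the Thorp shuffle of `2 * m` cards as a network (every even deck)
-/

open Finset Equiv

namespace Vale.Agent.P162.H72

/-- The other position of the switch of `x`. -/
def tnb (m : ℕ) (x : Fin (2 * m)) : Fin (2 * m) :=
  if h : (x : ℕ) < m then ⟨x + m, by omega⟩ else ⟨x - m, by omega⟩

/-- The representative of the switch of `x`. -/
def trep (m : ℕ) (x : Fin (2 * m)) : Fin (2 * m) :=
  if (x : ℕ) < m then x else ⟨x - m, by omega⟩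

theorem tnb_val (m : ℕ) (x : Fin (2 * m)) :
    (tnb m x : ℕ) = if (x : ℕ) < m then (x : ℕ) + m else x - m := by
  unfold tnb
  split <;> rfl

theorem trep_val (m : ℕ) (x : Fin (2 * m)) :
    (trep m x : ℕ) = if (x : ℕ) < m then (x : ℕ) else x - m := by
  unfold trep
  split <;> rfl

/-- The Thorp shuffle of `2 * m` cards as a (time-homogeneous) network. -/
def thorpNet (m : ℕ) : S2.Net (Fin (2 * m)) where
  nb _ x := tnb m x
  rep _ x := trep m x
  tw _ := shuffle m fun _ => false
  nb_nb _ x := by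
    apply Fin.ext
    rw [tnb_val, tnb_val]
    have := x.2
    split <;> split <;> omega
  nb_ne _ x := by
    intro h
    have h1 := congrArg Fin.val h
    rw [tnb_val] at h1
    have := x.2
    split at h1 <;> omega
  rep_eq _ x y := by
    rw [Fin.ext_iff, Fin.ext_iff, Fin.ext_iff, trep_val, trep_val, tnb_val]
    have := x.2
    have := y.2
    split <;> split <;> constructor <;> intro h <;> omega

theorem thorpNet_per (m : ℕ) : (thorpNet m).Per 1 := ⟨fun _ _ => rfl, fun _ _ => rfl, fun _ => rfl⟩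

/-- The coin of the switch `i` as a coin function on the positions. -/
def rcoin (m : ℕ) (c : Fin (2 * m) → Bool) : Fin m → Bool := fun i => c ⟨i, by omega⟩

theorem shuffle_val_lt (m : ℕ) (c : Fin m → Bool) (x : Fin (2 * m)) (h : (x : ℕ) < m) :
    (shuffle m c x : ℕ) = 2 * x + (if c ⟨x, h⟩ then 1 else 0) := by
  simp only [shuffle, Equiv.coe_fn_mk, dif_pos h]

theorem shuffle_val_ge (m : ℕ) (c : Fin m → Bool) (x : Fin (2 * m)) (h : ¬ (x : ℕ) < m) :
    (shuffle m c x : ℕ) = 2 * (x - m) + (if c ⟨x - m, by omega⟩ then 0 else 1) := by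
  simp only [shuffle, Equiv.coe_fn_mk, dif_neg h]

theorem thorpNet_step (m s : ℕ) (c : Fin (2 * m) → Bool) :
    (thorpNet m).step s c = shuffle m (rcoin m c) := by
  ext1 x
  rw [S2.Net.step, Perm.mul_apply, S2.Net.sw_apply]
  have hx := x.2
  show (shuffle m fun _ => false) (if c (trep m x) = true then tnb m x else x) = _
  have h1 := trep_val m x
  have h2 := tnb_val m x
  by_cases h : (x : ℕ) < m
  · rw [if_pos h] at h1 h2
    have h3 : trep m x = x := Fin.ext h1
    rw [h3]
    apply Fin.ext
    rw [shuffle_val_lt m _ x h]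
    have h4 : rcoin m c ⟨x, h⟩ = c x := rfl
    rw [h4]
    cases hc : c x
    · simp only [Bool.false_eq_true, if_false]
      rw [shuffle_val_lt m _ x h]
      simp
    · simp only [if_true]
      rw [shuffle_val_ge m _ _ (by omega), h2]
      simp
  · rw [if_neg h] at h1 h2
    have h3 : trep m x = ⟨x - m, by omega⟩ := Fin.ext h1
    rw [h3]
    apply Fin.ext
    rw [shuffle_val_ge m _ x h]
    have h4 : rcoin m c ⟨x - m, by omega⟩ = c ⟨x - m, by omega⟩ := rfl
    rw [h4]
    cases hc : c ⟨x - m, by omega⟩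
    · simp only [Bool.false_eq_true, if_false]
      rw [shuffle_val_ge m _ x h]
      simp
    · simp only [if_true]
      rw [shuffle_val_lt m _ _ (by omega), h2]
      simp

theorem thorpNet_pos (m a : ℕ) : ∀ (L : ℕ) (w : Fin L → Fin (2 * m) → Bool),
    (thorpNet m).pos a L w = spos m L fun s => rcoin m (w s)
  | 0, _ => rfl
  | L + 1, w => by
    rw [S2.Net.pos, spos, thorpNet_step, thorpNet_pos m a L]
    rfl

/-- Averages over coins that are not read. -/
theorem avg_comp_injective {Y Z : Type*} [Fintype Y] [DecidableEq Y] [Fintype Z]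
    [DecidableEq Z] (ι : Z → Y)
    (hι : Function.Injective ι) (F : (Z → Bool) → ℝ) :
    (S2.avg fun c : Y → Bool => F (c ∘ ι)) = S2.avg F := by
  classical
  let e1 : (Y → Bool) ≃ (({y // y ∈ Set.range ι} → Bool) × ({y // ¬ y ∈ Set.range ι} → Bool)) :=
    Equiv.piEquivPiSubtypeProd (fun y => y ∈ Set.range ι) fun _ => Bool
  let e2 : (Z → Bool) ≃ ({y // y ∈ Set.range ι} → Bool) :=
    Equiv.arrowCongr (Equiv.ofInjective ι hι) (Equiv.refl Bool)
  have h1 : (S2.avg fun c : Y → Bool => F (c ∘ ι)) =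
      S2.avg fun q : (({y // y ∈ Set.range ι} → Bool) × ({y // ¬ y ∈ Set.range ι} → Bool)) =>
        F (e2.symm q.1) := by
    rw [← S2.avg_equiv e1]
    congr 1
  rw [h1, S2.avg_prod]
  simp only [S2.avg_const]
  exact S2.avg_equiv e2.symm F

theorem avg_rcoin (m L : ℕ) (F : (Fin L → Fin m → Bool) → ℝ) :
    (S2.avg fun w : Fin L → Fin (2 * m) → Bool => F fun s => rcoin m (w s)) = S2.avg F := by
  induction L with
  | zero =>
    rw [S2.avg_unique, S2.avg_unique]
    congr 1
    exact Subsingleton.elim _ _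
  | succ L ih =>
    rw [S2.avg_snoc, S2.avg_snoc]
    have h1 : ∀ w : Fin L → Fin (2 * m) → Bool, (S2.avg fun c : Fin (2 * m) → Bool =>
        F fun s => rcoin m ((Fin.snoc w c : Fin (L + 1) → Fin (2 * m) → Bool) s)) =
        S2.avg fun c : Fin m → Bool => F (Fin.snoc (fun s => rcoin m (w s)) c) := by
      intro w
      rw [← avg_comp_injective (fun i : Fin m => (⟨i, by omega⟩ : Fin (2 * m))) (by
        intro i j h
        simpa [Fin.ext_iff] using h)]
      congr 1
      funext c
      congr 1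
      funext s
      refine Fin.lastCases ?_ ?_ s
      · rw [Fin.snoc_last, Fin.snoc_last]
        rfl
      · intro i
        rw [Fin.snoc_castSucc, Fin.snoc_castSucc]
    simp only [h1]
    exact ih fun w => S2.avg fun c : Fin m → Bool => F (Fin.snoc w c)

/-- The network runs the Thorp shuffle. -/
theorem run_thorpNet (m a L : ℕ) (F : Perm (Fin (2 * m)) → ℝ) :
    (thorpNet m).run a L F 1 = ∑ g, convPow (thorpLaw m) L g * F g := by
  rw [sum_convPow_thorp, S2.Net.run, ← avg_rcoin m L fun w => F (spos m L w)]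
  congr 1
  funext w
  rw [thorpNet_pos, mul_one]

/-- The form in which the upper bound is used for every even deck. -/
theorem tv_thorp_le_of_net (m L : ℕ) (ε : ℝ)
    (h : ∀ F : Perm (Fin (2 * m)) → ℝ, (∀ g, 0 ≤ F g) → (∀ g, F g ≤ 1) →
      (thorpNet m).run 0 L F 1 ≤ S2.avg F + ε) :
    tv (convPow (thorpLaw m) L) (unif (Perm (Fin (2 * m)))) ≤ ε := by
  apply tv_unif_le_of_test _ (sum_convPow _ (sum_thorpLaw m) L)
  intro F h0 h1
  rw [← run_thorpNet m 0]
  exact h F h0 h1

end Vale.Agent.P162.H72
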