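import Vale.Agent.P162.H72.Law

/-!
# P162: the counting lower bound for the mixing time
-/

open Finset Equiv

namespace Vale.Agent.P162.H72

section group
variable {G : Type*} [Group G] [Fintype G] [DecidableEq G]

theorem thorp_nonneg (m : ℕ) (σ : Perm (Fin (2 * m))) : 0 ≤ thorpLaw m σ := by
  unfold thorpLaw
  positivity

/-- The support of a law. -/
noncomputable def supp (μ : G → ℝ) : Finset G := univ.filter fun g => μ g ≠ 0

omit [Group G] [DecidableEq G] in
theorem mem_supp {μ : G → ℝ} {g : G} : g ∈ supp μ ↔ μ g ≠ 0 := by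
  simp [supp]

theorem supp_conv (μ ν : G → ℝ) :
    supp (conv μ ν) ⊆ ((supp μ) ×ˢ (supp ν)).image fun p => p.1 * p.2 := by
  intro g hg
  simp only [supp, mem_filter, mem_univ, true_and] at hg
  simp only [conv] at hg
  obtain ⟨h, _, hh⟩ := exists_ne_zero_of_sum_ne_zero hg
  simp only [mem_image, mem_product, supp, mem_filter, mem_univ, true_and, Prod.exists]
  exact ⟨h, h⁻¹ * g, ⟨left_ne_zero_of_mul hh, right_ne_zero_of_mul hh⟩, by simp⟩

theorem card_supp_convPow (μ : G → ℝ) (K : ℕ) (hK : (supp μ).card ≤ K) (t : ℕ) :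
    (supp (convPow μ t)).card ≤ K ^ t := by
  induction t with
  | zero =>
    rw [pow_zero, card_le_one]
    intro a ha b hb
    simp only [supp, convPow, mem_filter, mem_univ, true_and, ne_eq, ite_eq_right_iff,
      one_ne_zero, imp_false, not_not] at ha hb
    rw [ha, hb]
  | succ t ih =>
    rw [convPow, pow_succ']
    calc (supp (conv μ (convPow μ t))).card
        ≤ (((supp μ) ×ˢ (supp (convPow μ t))).image fun p => p.1 * p.2).card :=
          card_le_card (supp_conv _ _)
      _ ≤ ((supp μ) ×ˢ (supp (convPow μ t))).card := card_image_le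
      _ = (supp μ).card * (supp (convPow μ t)).card := card_product _ _
      _ ≤ _ := Nat.mul_le_mul hK ih

/-- A law with small support is far from uniform. -/
theorem le_tv (μ : G → ℝ) (hμ : ∑ g, μ g = 1) :
    1 - ((supp μ).card : ℝ) / Fintype.card G ≤ tv μ (unif G) := by
  have hc : (0 : ℝ) < Fintype.card G := by exact_mod_cast Fintype.card_pos
  have h1 : ∀ g, (1 / Fintype.card G : ℝ) - μ g + (if g ∈ supp μ then
      2 * (μ g - 1 / Fintype.card G) else 0) ≤ |μ g - unif G g| := by
    intro g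
    rw [unif]
    by_cases hg : g ∈ supp μ
    · rw [if_pos hg]
      refine le_trans (le_of_eq ?_) (le_abs_self _)
      ring
    · rw [if_neg hg]
      refine le_trans (le_of_eq ?_) (neg_le_abs _)
      ring
  have h2 := Finset.sum_le_sum fun g (_ : g ∈ (univ : Finset G)) => h1 g
  rw [sum_add_distrib, sum_sub_distrib, hμ, sum_ite_mem, univ_inter, ← Finset.mul_sum,
    sum_sub_distrib] at h2
  have h3 : ∑ g ∈ supp μ, μ g = 1 := by
    rw [← hμ, supp, sum_filter_ne_zero]
  rw [h3] at h2
  simp only [sum_const, card_univ, nsmul_eq_mul] at h2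
  rw [tv]
  have h4 : (Fintype.card G : ℝ) * (1 / Fintype.card G) = 1 := by field_simp
  rw [h4] at h2
  have h5 : ((supp μ).card : ℝ) * (1 / Fintype.card G) = (supp μ).card / Fintype.card G := by ring
  rw [h5] at h2
  linarith

end group

theorem card_supp_thorpLaw (m : ℕ) : (supp (thorpLaw m)).card ≤ 2 ^ m := by
  have h1 : supp (thorpLaw m) ⊆ (univ : Finset (Fin m → Bool)).image (shuffle m) := by
    intro σ hσ
    rw [mem_supp, thorpLaw] at hσ
    have h2 : (univ.filter fun c : Fin m → Bool => shuffle m c = σ).Nonempty := by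
      rw [← card_pos]
      by_contra h
      apply hσ
      have : (univ.filter fun c : Fin m → Bool => shuffle m c = σ).card = 0 := by omega
      rw [this]
      simp
    obtain ⟨c, hc⟩ := h2
    exact mem_image.2 ⟨c, mem_univ _, (mem_filter.1 hc).2⟩
  calc (supp (thorpLaw m)).card ≤ _ := card_le_card h1
    _ ≤ (univ : Finset (Fin m → Bool)).card := card_image_le
    _ = 2 ^ m := by simp

/-- Counting bound: after `t` shuffles with total variation distance at most `1 / 4`. -/
theorem factorial_le (m t : ℕ)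
    (h : tv (convPow (thorpLaw m) t) (unif (Perm (Fin (2 * m)))) ≤ 1 / 4) :
    3 * (2 * m).factorial ≤ 4 * 2 ^ (m * t) := by
  have h1 := le_tv (convPow (thorpLaw m) t) (sum_convPow _ (sum_thorpLaw m) t)
  have h2 := card_supp_convPow (thorpLaw m) (2 ^ m) (card_supp_thorpLaw m) t
  rw [← pow_mul] at h2
  have h3 : Fintype.card (Perm (Fin (2 * m))) = (2 * m).factorial := by
    rw [Fintype.card_perm, Fintype.card_fin]
  rw [h3] at h1
  have h4 : (0 : ℝ) < (2 * m).factorial := by exact_mod_cast Nat.factorial_pos _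
  have h5 : 3 / 4 ≤ ((supp (convPow (thorpLaw m) t)).card : ℝ) / (2 * m).factorial := by linarith
  rw [le_div_iff₀ h4] at h5
  have h6 : ((supp (convPow (thorpLaw m) t)).card : ℝ) ≤ 2 ^ (m * t) := by exact_mod_cast h2
  have h7 : (3 : ℝ) * (2 * m).factorial ≤ 4 * 2 ^ (m * t) := by linarith
  exact_mod_cast h7

/-- The lower bound: `2 ^ (d + 1)` cards need at least `d + 1` shuffles. -/
theorem lower (d t : ℕ)
    (h : tv (convPow (thorpLaw (2 ^ d)) t) (unif (Perm (Fin (2 * 2 ^ d)))) ≤ 1 / 4) :
    d + 1 ≤ t := by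
  have h1 := factorial_le _ _ h
  by_contra ht
  have ht' : t ≤ d := by omega
  rcases Nat.eq_zero_or_pos d with hd | hd
  · subst hd
    have : t = 0 := by omega
    subst this
    norm_num [Nat.factorial] at h1
  · set m := 2 ^ d with hm
    have hm2 : 2 ≤ m := by
      rw [hm]
      calc 2 = 2 ^ 1 := rfl
        _ ≤ 2 ^ d := Nat.pow_le_pow_right (by norm_num) hd
    have h2 : m.factorial * (m + 1) ^ m ≤ (2 * m).factorial := by
      rw [two_mul]
      exact Nat.factorial_mul_pow_le_factorial
    have h3 : 2 ^ (m * t) ≤ m ^ m := by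
      calc 2 ^ (m * t) ≤ 2 ^ (m * d) := Nat.pow_le_pow_right (by norm_num) (Nat.mul_le_mul_left m ht')
        _ = m ^ m := by rw [mul_comm, pow_mul, ← hm]
    have h4 : m ^ m < (m + 1) ^ m := Nat.pow_lt_pow_left (Nat.lt_succ_self m) (by omega)
    have h5 : 2 ≤ m.factorial := by
      calc 2 = Nat.factorial 2 := rfl
        _ ≤ m.factorial := Nat.factorial_le hm2
    have h6 : 2 * (m + 1) ^ m ≤ m.factorial * (m + 1) ^ m := Nat.mul_le_mul_right _ h5
    omega

/-- If some number of shuffles is enough, the mixing time is at least `d + 1`. -/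
theorem le_tmix (d t : ℕ)
    (h : tv (convPow (thorpLaw (2 ^ d)) t) (unif (Perm (Fin (2 * 2 ^ d)))) ≤ 1 / 4) :
    d + 1 ≤ tmix (2 ^ d) :=
  lower d _ (Nat.sInf_mem (s := {t : ℕ |
    tv (convPow (thorpLaw (2 ^ d)) t) (unif (Perm (Fin (2 * 2 ^ d)))) ≤ 1 / 4}) ⟨t, h⟩)

end Vale.Agent.P162.H72
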