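import Vale.Agent.P162.S2.Defs
import Vale.Agent.P162.H72.Lower

/-!
# P162: the law of the static hypercube process (S2/Defs.lean) is the law of the Thorp shuffle
-/

open Finset Equiv
open Vale.Agent.P162.H474 (X P T card_X)

namespace Vale.Agent.P162.H72

/-- Transport of permutations of the cube to permutations of `X d`. -/
noncomputable def psi (d : ℕ) : Perm (S2.V d) ≃* Perm (X d) := (cd d).symm.permCongrHom

theorem psi_apply (d : ℕ) (σ : Perm (S2.V d)) (x : X d) :
    cd d (psi d σ x) = σ (cd d x) := by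
  simp [psi, Equiv.permCongrHom]

theorem psi_symm_apply (d : ℕ) (σ : Perm (X d)) (x : S2.V d) :
    (psi d).symm σ x = cd d (σ ((cd d).symm x)) := by
  simp [psi, Equiv.permCongrHom]

theorem sw_mem_Hs {d : ℕ} (i : Fin d) (c : S2.Coin d) : psi d (S2.sw i c) ∈ Hs d i := by
  rw [mem_Hs]
  intro x j hj
  rw [psi_apply]
  exact S2.sw_apply_of_ne (fun h => hj (by rw [h])) c _

/-- Every permutation that changes only the coordinate `i` is a switch permutation. -/
theorem exists_sw {d : ℕ} (i : Fin d) (σ : Perm (X d)) (hσ : σ ∈ Hs d i) :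
    ∃ c : S2.Coin d, psi d (S2.sw i c) = σ := by
  classical
  rw [mem_Hs] at hσ
  set τ : Perm (S2.V d) := (psi d).symm σ with hτ
  have h1 : ∀ x : S2.V d, ∀ j, j ≠ i → τ x j = x j := by
    intro x j hj
    rw [hτ, psi_symm_apply]
    have := hσ ((cd d).symm x) j (fun h => hj (Fin.ext h))
    rw [this, Equiv.apply_symm_apply]
  have h2 : ∀ x, τ x = x ∨ τ x = S2.nb i x := by
    intro x
    by_cases h : τ x i = x i
    · left
      funext j
      by_cases hj : j = i
      · rw [hj, h]
      · exact h1 x j hj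
    · right
      funext j
      by_cases hj : j = i
      · subst hj
        simp only [S2.nb, Function.update_self]
        cases h3 : τ x j <;> cases h4 : x j <;> simp_all
      · rw [h1 x j hj]
        simp [S2.nb, hj]
  have h3 : ∀ x, (τ (S2.nb i x) = S2.nb i x) ↔ τ x = x := by
    intro x
    constructor
    · intro h
      rcases h2 x with h4 | h4
      · exact h4
      · exact absurd (τ.injective (h4.trans h.symm)) (S2.nb_ne i x).symm
    · intro h
      rcases h2 (S2.nb i x) with h4 | h4
      · exact h4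
      · rw [S2.nb_nb] at h4
        exact absurd (τ.injective (h4.trans h.symm)) (S2.nb_ne i x)
  refine ⟨fun x => decide (τ x ≠ x), ?_⟩
  have h5 : S2.sw i (fun x => decide (τ x ≠ x)) = τ := by
    ext1 x
    rw [S2.sw_apply]
    have h6 : (τ (S2.rep i x) = S2.rep i x) ↔ τ x = x := by
      have : S2.rep i x = x ∨ S2.rep i x = S2.nb i x := by
        cases h : x i
        · left
          funext j
          by_cases hj : j = i
          · subst hj; simp [S2.rep, h]
          · simp [S2.rep, hj]
        · right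
          funext j
          by_cases hj : j = i
          · subst hj; simp [S2.rep, S2.nb, h]
          · simp [S2.rep, S2.nb, hj]
      rcases this with h | h
      · rw [h]
      · rw [h, h3]
    by_cases h7 : τ x = x
    · simp [h6.2 h7, h7]
    · have h8 : ¬ τ (S2.rep i x) = S2.rep i x := fun h => h7 (h6.1 h)
      have h9 := (h2 x).resolve_left h7
      simp [h8, h9]
  rw [h5, hτ, MulEquiv.apply_symm_apply]

section
variable {W : Type*} [NormedAddCommGroup W] [InnerProductSpace ℝ W]

/-- The average of `ρ` over the switches of direction `i`. -/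
theorem avg_sw {d : ℕ} (i : Fin d) (ρ : Perm (X d) →* (W →L[ℝ] W)) :
    ((Fintype.card (S2.Coin d) : ℝ)⁻¹ • ∑ c : S2.Coin d, ρ (psi d (S2.sw i c))) =
      avg (Hs d i) ρ := by
  set p' := ((Fintype.card (S2.Coin d) : ℝ)⁻¹ • ∑ c : S2.Coin d, ρ (psi d (S2.sw i c))) with hp'
  have hne : (Fintype.card (S2.Coin d) : ℝ) ≠ 0 := by
    exact_mod_cast Fintype.card_ne_zero
  have hne2 : ((Hs d i).card : ℝ) ≠ 0 := by
    have : 0 < (Hs d i).card := card_pos.2 ⟨_, sw_mem_Hs i fun _ => false⟩
    exact_mod_cast this.ne'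
  have h1 : ∀ σ ∈ Hs d i, ρ σ * p' = p' := by
    intro σ hσ
    obtain ⟨c, hc⟩ := exists_sw i σ hσ
    rw [hp', mul_smul_comm, Finset.mul_sum]
    congr 1
    refine Fintype.sum_equiv (Equiv.arrowCongr' (Equiv.refl _) (Equiv.refl _) |>.trans
      (Function.Involutive.toPerm (fun (c' : S2.Coin d) x => xor (c x) (c' x)) (by
        intro c'; funext x; simp))) _ _ ?_
    intro c'
    rw [← map_mul, ← hc, ← map_mul, ← S2.sw_xor]
    rfl
  have h2 : ∀ c : S2.Coin d, avg (Hs d i) ρ * ρ (psi d (S2.sw i c)) = avg (Hs d i) ρ := by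
    intro c
    rw [avg, smul_mul_assoc, Finset.sum_mul]
    congr 1
    have h0 := sw_mem_Hs i c
    refine Finset.sum_bij' (fun σ _ => σ * psi d (S2.sw i c))
      (fun σ _ => σ * (psi d (S2.sw i c))⁻¹) ?_ ?_ ?_ ?_ ?_
    · intro σ hσ
      rw [mem_Hs] at hσ h0 ⊢
      intro x j hj
      rw [Perm.mul_apply, hσ _ _ hj, h0 _ _ hj]
    · intro σ hσ
      rw [mem_Hs] at hσ h0 ⊢
      intro x j hj
      rw [Perm.mul_apply, hσ _ _ hj]
      have := h0 ((psi d (S2.sw i c))⁻¹ x) j hj
      rw [apply_inv_self] at this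
      exact this.symm
    · intro σ _; simp
    · intro σ _; simp
    · intro σ _; rw [map_mul]
  have h3 : avg (Hs d i) ρ * p' = p' := by
    rw [avg, smul_mul_assoc, Finset.sum_mul, Finset.sum_congr rfl h1, sum_const,
      ← Nat.cast_smul_eq_nsmul ℝ, smul_smul, inv_mul_cancel₀ hne2, one_smul]
  have h4 : avg (Hs d i) ρ * p' = avg (Hs d i) ρ := by
    rw [hp', mul_smul_comm, Finset.mul_sum, Finset.sum_congr rfl fun c _ => h2 c, sum_const,
      card_univ, ← Nat.cast_smul_eq_nsmul ℝ, smul_smul, inv_mul_cancel₀ hne, one_smul]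
  rw [← h3, h4]

theorem avg_pos {d : ℕ} [NeZero d] (ρ : Perm (X d) →* (W →L[ℝ] W)) (a L : ℕ) :
    ((Fintype.card (Fin L → S2.Coin d) : ℝ)⁻¹ •
      ∑ w : Fin L → S2.Coin d, ρ (psi d (S2.pos a L w))) =
      down L fun s => avg (Hs d (S2.dir d (a + s))) ρ := by
  induction L with
  | zero => simp [S2.pos, down]
  | succ L ih =>
    rw [down, ← ih, ← avg_sw, smul_mul_smul_comm, Finset.sum_mul_sum, ← Fintype.sum_prod_type',
      Fintype.card_pi, Fin.prod_univ_castSucc, ← Fintype.card_pi]
    congr 1
    · push_cast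
      rw [mul_inv, mul_comm]
    · symm
      refine Fintype.sum_equiv (Fin.snocEquiv fun _ => S2.Coin d) _ _ fun q => ?_
      rw [S2.pos, ← map_mul, ← map_mul]
      simp [Fin.snocEquiv]

end

theorem down_add {A : Type*} [Monoid A] (k l : ℕ) (q : ℕ → A) :
    down (k + l) q = down l (fun j => q (k + j)) * down k q := by
  induction l with
  | zero => simp [down]
  | succ l ih => rw [← add_assoc, down, ih, down, mul_assoc]

theorem down_periodic {A : Type*} [Monoid A] (k r : ℕ) (q : ℕ → A)
    (hq : ∀ j, q (k + j) = q j) : down (k * r) q = down k q ^ r := by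
  induction r with
  | zero => simp [down]
  | succ r ih =>
    have h : ∀ r j, q (k * r + j) = q j := by
      intro r j
      induction r with
      | zero => simp
      | succ r ih => rw [mul_add, mul_one, add_comm (k * r) k, add_assoc, hq, ih]
    rw [mul_add, mul_one, down_add, ih, pow_succ']
    simp only [h]

/-- The law of the static process: the first direction is `a`, `L` steps. -/
noncomputable def posLaw (d : ℕ) [NeZero d] (a L : ℕ) (g : Perm (S2.V d)) : ℝ :=
  S2.avg fun w : Fin L → S2.Coin d => if S2.pos a L w = g then 1 else 0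

theorem sum_posLaw (d : ℕ) [NeZero d] (a L : ℕ) : ∑ g, posLaw d a L g = 1 := by
  simp only [posLaw]
  rw [← S2.avg_sum]
  simp [S2.avg_const]

theorem reg_single {G : Type*} [Group G] [Fintype G] [DecidableEq G] (g : G) :
    reg G g (EuclideanSpace.single 1 1) = EuclideanSpace.single g 1 := by
  ext h
  rw [reg_apply]
  simp [inv_mul_eq_one, eq_comm]

theorem vec_posLaw (d : ℕ) [NeZero d] (a L : ℕ) :
    vec (posLaw d a L ∘ (psi d).symm) =
      (down L fun s => avg (Hs d (S2.dir d (a + s))) (reg (Perm (X d))))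
        (EuclideanSpace.single 1 1) := by
  rw [← avg_pos]
  ext g
  rw [vec_apply, _root_.smul_apply, PiLp.smul_apply, _root_.sum_apply, WithLp.ofLp_sum,
    Finset.sum_apply, smul_eq_mul, Function.comp_apply, posLaw, S2.avg, div_eq_inv_mul]
  congr 1
  refine Finset.sum_congr rfl fun w _ => ?_
  rw [reg_single]
  by_cases h : S2.pos a L w = (psi d).symm g
  · have : psi d (S2.pos a L w) = g := by rw [h, MulEquiv.apply_symm_apply]
    simp [h]
  · have : psi d (S2.pos a L w) ≠ g := by
      intro h2
      apply h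
      rw [← h2, MulEquiv.symm_apply_apply]
    simp [h, this.symm]

/-- The static process after `(d + 1) * r` steps has the law of `(d + 1) * r` Thorp shuffles. -/
theorem vec_posLaw_eq (d r : ℕ) :
    posLaw (d + 1) 0 ((d + 1) * r) ∘ (psi (d + 1)).symm =
      convPow (thorpLaw (2 ^ d) ∘ tr d) ((d + 1) * r) := by
  have h : vec (posLaw (d + 1) 0 ((d + 1) * r) ∘ (psi (d + 1)).symm) =
      vec (convPow (thorpLaw (2 ^ d) ∘ tr d) ((d + 1) * r)) := by
    have h0 : (down (d + 1) fun s =>
        avg (Hs (d + 1) (S2.dir (d + 1) (0 + s))) (reg (Perm (X (d + 1))))) =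
        down (d + 1) fun j => avg (Hs (d + 1) j) (reg (Perm (X (d + 1)))) := by
      apply down_congr
      intro j hj
      rw [S2.dir_val, zero_add, Nat.mod_eq_of_lt hj]
    rw [vec_posLaw, vec_thorp, T_eq_down, down_periodic, h0]
    intro j
    simp only [zero_add, S2.dir_val, Nat.add_mod_left]
  funext g
  have := congrArg (fun v : EuclideanSpace ℝ (Perm (X (d + 1))) => v g) h
  simpa [vec_apply] using this

/-- BRIDGE: total variation distance of the Thorp shuffle and of the static process. -/
theorem tv_thorp_eq (d r : ℕ) :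
    tv (convPow (thorpLaw (2 ^ d)) ((d + 1) * r)) (unif (Perm (Fin (2 * 2 ^ d)))) =
      tv (posLaw (d + 1) 0 ((d + 1) * r)) (unif (Perm (S2.V (d + 1)))) := by
  have h1 : tv (convPow (thorpLaw (2 ^ d)) ((d + 1) * r)) (unif (Perm (Fin (2 * 2 ^ d)))) =
      tv (convPow (thorpLaw (2 ^ d) ∘ tr d) ((d + 1) * r)) (unif (Perm (X (d + 1)))) := by
    rw [convPow_comp, ← tv_comp (tr d)]
    congr 1
    funext σ
    simp only [unif, Function.comp_apply]
    rw [Fintype.card_congr (tr d).toEquiv]
  have h2 : tv (posLaw (d + 1) 0 ((d + 1) * r)) (unif (Perm (S2.V (d + 1)))) =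
      tv (posLaw (d + 1) 0 ((d + 1) * r) ∘ (psi (d + 1)).symm) (unif (Perm (X (d + 1)))) := by
    rw [← tv_comp (psi (d + 1)).symm]
    congr 1
    funext σ
    simp only [unif, Function.comp_apply]
    rw [Fintype.card_congr (psi (d + 1)).toEquiv]
  rw [h1, h2, vec_posLaw_eq]

theorem tmix_le_of_pos (d r : ℕ)
    (h : tv (posLaw (d + 1) 0 ((d + 1) * r)) (unif (Perm (S2.V (d + 1)))) ≤ 1 / 4) :
    tmix (2 ^ d) ≤ (d + 1) * r := by
  rw [← tv_thorp_eq] at h
  exact Nat.sInf_le h

end Vale.Agent.P162.H72
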