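import Vale.Agent.P162.H175.ABFinal
import Vale.Agent.P162.H768.PartB
import Vale.Agent.P162.S2.Cube
import Vale.Agent.P162.H72.Convert

/-!
# P162: `t_mix (2 ^ (d + 1))` is of order `d + 1`
-/

open Finset Equiv

namespace Vale.Agent.P162.H72

/-- The upper bound for large `d`. -/
theorem cube_upper : ∃ r d1 : ℕ, ∀ d, d1 ≤ d →
    tv (convPow (thorpLaw (2 ^ d)) ((d + 1) * r)) (unif (Perm (Fin (2 * 2 ^ d)))) ≤ 1 / 4 := by
  obtain ⟨r, d1, h⟩ := S2.cube_main (S2.Abs.AB_main (by norm_num) (by norm_num)) H768.partB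
  refine ⟨r, d1, fun d hd => ?_⟩
  apply tv_thorp_le_of_cube d r (1 / 4)
  intro F h0 h1
  exact h (d + 1) (by omega) F h0 h1

end Vale.Agent.P162.H72
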