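import Vale.Agent.P162.H175.ABFinal
import Vale.Agent.P162.H491.PartBEven
import Vale.Agent.P162.H915.MixEven
import Vale.Agent.P162.S3.Even
import Vale.Agent.P162.H72.Convert

/-!
# P162: the mixing time of the Thorp shuffle of `n = 2 * m` cards is of order `log n`
-/

open Finset Equiv

namespace Vale.Agent.P162.H72

/-- The upper bound for large even decks. -/
theorem even_upper : ∃ (C0 : ℝ) (m0 : ℕ), ∀ m, m0 ≤ m → 1 ≤ m →
    ∃ L : ℕ, (L : ℝ) ≤ C0 * Real.log (2 * m : ℕ) ∧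
      tv (convPow (thorpLaw m) L) (unif (Perm (Fin (2 * m)))) ≤ 1 / 4 := by
  obtain ⟨r, m1, h⟩ := S3.even_main (S2.Abs.AB_main (by norm_num) (by norm_num))
    H915.mixEven H491.partBEven
  refine ⟨r / Real.log 2, m1, fun m hm h1 => ⟨r * Nat.log 2 (2 * m), ?_, ?_⟩⟩
  · have h2 : (Nat.log 2 (2 * m) : ℝ) ≤ Real.logb 2 (2 * m : ℕ) :=
      Real.natLog_le_logb (2 * m) 2
    have hr : (0 : ℝ) ≤ r := Nat.cast_nonneg r
    push_cast
    calc (r : ℝ) * (Nat.log 2 (2 * m) : ℝ) ≤ r * Real.logb 2 (2 * m : ℕ) :=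
          mul_le_mul_of_nonneg_left h2 hr
      _ = r / Real.log 2 * Real.log (2 * m) := by
          rw [Real.logb]
          push_cast
          ring
  · apply tv_thorp_le_of_net m _ (1 / 4)
    intro F hF0 hF1
    exact h m hm F hF0 hF1

end Vale.Agent.P162.H72
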