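import Vale.Agent.P162.H72.ThorpNet

/-!
# P162: every deck of `2 * m ≥ 2` cards gets mixed

`exists_mix`: for every `m ≥ 1` some number of Thorp shuffles is within total variation distance
`1 / 4` of uniform (so the mixing time is a genuine minimum).
-/

open Finset Equiv

namespace Vale.Agent.P162.H72

/-! ### The group generated by the switches -/

/-- The perfect (coinless) shuffle. -/
def rt (m : ℕ) : Perm (Fin (2 * m)) := shuffle m fun _ => false

/-- The switches. -/
def swt (m : ℕ) (c : Fin (2 * m) → Bool) : Perm (Fin (2 * m)) := (thorpNet m).sw 0 c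

theorem rt_mul_swt (m : ℕ) (c : Fin (2 * m) → Bool) : rt m * swt m c = shuffle m (rcoin m c) :=
  thorpNet_step m 0 c

theorem swt_apply (m : ℕ) (c : Fin (2 * m) → Bool) (x : Fin (2 * m)) :
    swt m c x = if c (trep m x) then tnb m x else x := rfl

theorem swt_mul_self (m : ℕ) (c : Fin (2 * m) → Bool) : swt m c * swt m c = 1 := by
  have h := (thorpNet m).sw_xor 0 c c
  rw [swt, ← h]
  ext1 x
  rw [S2.Net.sw_apply]
  simp

theorem swt_inv (m : ℕ) (c : Fin (2 * m) → Bool) : (swt m c)⁻¹ = swt m c :=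
  inv_eq_of_mul_eq_one_left (swt_mul_self m c)

theorem swt_single (m : ℕ) (x : Fin (2 * m)) :
    swt m (fun z => decide (z = trep m x)) = swap x (tnb m x) := by
  ext1 y
  rw [swt_apply]
  have h := (thorpNet m).rep_eq 0 x y
  have h' : (trep m x = trep m y) ↔ (y = x ∨ y = tnb m x) := h
  by_cases h1 : trep m y = trep m x
  · rw [decide_eq_true h1, if_pos rfl]
    rcases h'.1 h1.symm with h2 | h2
    · rw [h2, swap_apply_left]
    · rw [h2, swap_apply_right]
      exact (thorpNet m).nb_nb 0 x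
  · rw [decide_eq_false h1]
    have h2 : ¬ (y = x ∨ y = tnb m x) := fun h3 => h1 (h'.2 h3).symm
    push Not at h2
    rw [swap_apply_of_ne_of_ne h2.1 h2.2]
    simp

/-- The conjugates of the switches. -/
def gens (m : ℕ) : Set (Perm (Fin (2 * m))) :=
  {h | ∃ (s : ℕ) (c : Fin (2 * m) → Bool), h = (rt m ^ s)⁻¹ * swt m c * rt m ^ s}

theorem gens_conj (m : ℕ) {h : Perm (Fin (2 * m))} (hh : h ∈ gens m) :
    rt m * h * (rt m)⁻¹ ∈ gens m := by
  obtain ⟨s, c, rfl⟩ := hh
  refine ⟨s + (orderOf (rt m) - 1), c, ?_⟩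
  have hpos : 0 < orderOf (rt m) := orderOf_pos _
  have h1 : rt m ^ (orderOf (rt m) - 1) = (rt m)⁻¹ := by
    rw [eq_inv_iff_mul_eq_one, ← pow_succ, Nat.sub_add_cancel hpos, pow_orderOf_eq_one]
  rw [pow_add, h1]
  group

theorem closure_conj (m : ℕ) {h : Perm (Fin (2 * m))} (hh : h ∈ Subgroup.closure (gens m)) :
    rt m * h * (rt m)⁻¹ ∈ Subgroup.closure (gens m) := by
  have h1 : Subgroup.closure (gens m) ≤
      (Subgroup.closure (gens m)).comap (MulAut.conj (rt m)).toMonoidHom := by
    rw [Subgroup.closure_le]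
    intro g hg
    exact Subgroup.subset_closure (gens_conj m hg)
  exact h1 hh

theorem swap_rt (m : ℕ) {x y : Fin (2 * m)} (h : swap x y ∈ Subgroup.closure (gens m)) :
    swap (rt m x) (rt m y) ∈ Subgroup.closure (gens m) := by
  have h1 := closure_conj m h
  rwa [Equiv.mul_swap_eq_swap_mul, mul_assoc, mul_inv_cancel, mul_one] at h1

theorem swap_tnb (m : ℕ) (x : Fin (2 * m)) : swap x (tnb m x) ∈ Subgroup.closure (gens m) := by
  apply Subgroup.subset_closure
  exact ⟨0, fun z => decide (z = trep m x), by rw [swt_single]; simp⟩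

theorem swap_zero (m : ℕ) (hm : 1 ≤ m) : ∀ (k : ℕ) (hk : k < 2 * m),
    swap (⟨k, hk⟩ : Fin (2 * m)) ⟨0, by omega⟩ ∈ Subgroup.closure (gens m) := by
  intro k
  induction k using Nat.strong_induction_on with
  | _ k ih =>
    intro hk
    rcases Nat.eq_zero_or_pos k with h0 | h0
    · subst h0
      rw [swap_self]
      exact one_mem _
    · by_cases hkm : k < m
      · rcases Nat.even_or_odd' k with ⟨y, hy | hy⟩
        · have h1 : rt m ⟨y, by omega⟩ = ⟨k, hk⟩ := by
            apply Fin.ext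
            rw [rt, shuffle_val_lt m _ _ (by show y < m; omega)]
            simp [hy]
          have h2 : rt m ⟨0, by omega⟩ = ⟨0, by omega⟩ := by
            apply Fin.ext
            rw [rt, shuffle_val_lt m _ _ (by show 0 < m; omega)]
            simp
          have h3 := swap_rt m (ih y (by omega) (by omega))
          rwa [h1, h2] at h3
        · have h1 : rt m ⟨y, by omega⟩ = ⟨2 * y, by omega⟩ := by
            apply Fin.ext
            rw [rt, shuffle_val_lt m _ _ (by show y < m; omega)]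
            simp
          have h2 : rt m (tnb m ⟨y, by omega⟩) = ⟨k, hk⟩ := by
            have h3 : (tnb m ⟨y, by omega⟩ : ℕ) = y + m := by
              rw [tnb_val, if_pos (by show y < m; omega)]
            apply Fin.ext
            rw [rt, shuffle_val_ge m _ _ (by omega), h3]
            simp [hy]
          have h3 := swap_rt m (swap_tnb m ⟨y, by omega⟩)
          rw [h1, h2, swap_comm] at h3
          exact SubmonoidClass.swap_mem_trans _ h3 (ih (2 * y) (by omega) (by omega))
      · have h1 : tnb m ⟨k, hk⟩ = ⟨k - m, by omega⟩ := by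
          apply Fin.ext
          rw [tnb_val, if_neg hkm]
        have h2 := swap_tnb m ⟨k, hk⟩
        rw [h1] at h2
        exact SubmonoidClass.swap_mem_trans _ h2 (ih (k - m) (by omega) (by omega))

theorem closure_gens (m : ℕ) (hm : 1 ≤ m) : Subgroup.closure (gens m) = ⊤ := by
  rw [eq_top_iff, ← Equiv.Perm.closure_isSwap, Subgroup.closure_le]
  rintro σ ⟨x, y, _, rfl⟩
  have h1 := swap_zero m hm x x.2
  have h2 := swap_zero m hm y y.2
  rw [swap_comm] at h2
  exact SubmonoidClass.swap_mem_trans _ h1 h2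

/-! ### Full support after some time -/

theorem thorpLaw_pos (m : ℕ) (c : Fin m → Bool) : 0 < thorpLaw m (shuffle m c) := by
  unfold thorpLaw
  have h : 0 < (univ.filter fun c' : Fin m → Bool => shuffle m c' = shuffle m c).card :=
    card_pos.2 ⟨c, by simp⟩
  positivity

theorem convPow_nonneg (m t : ℕ) (g : Perm (Fin (2 * m))) : 0 ≤ convPow (thorpLaw m) t g := by
  induction t generalizing g with
  | zero => simp only [convPow]; split <;> norm_num
  | succ t ih =>
    simp only [convPow, conv]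
    exact sum_nonneg fun h _ => mul_nonneg (thorp_nonneg m h) (ih _)

theorem convPow_pos_succ (m t : ℕ) (c : Fin m → Bool) (g : Perm (Fin (2 * m)))
    (hg : 0 < convPow (thorpLaw m) t g) : 0 < convPow (thorpLaw m) (t + 1) (shuffle m c * g) := by
  simp only [convPow, conv]
  refine sum_pos' (fun h _ => mul_nonneg (thorp_nonneg m h) (convPow_nonneg m t _))
    ⟨shuffle m c, mem_univ _, ?_⟩
  rw [inv_mul_cancel_left]
  exact mul_pos (thorpLaw_pos m c) hg

/-- The static form of the support. -/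
def SA (m t : ℕ) : Set (Perm (Fin (2 * m))) := {g | 0 < convPow (thorpLaw m) t (rt m ^ t * g)}

theorem SA_gen (m t : ℕ) (c : Fin (2 * m) → Bool) {g : Perm (Fin (2 * m))} (hg : g ∈ SA m t) :
    (rt m ^ t)⁻¹ * swt m c * rt m ^ t * g ∈ SA m (t + 1) := by
  have h1 := convPow_pos_succ m t (rcoin m c) _ hg
  have h2 : shuffle m (rcoin m c) * (rt m ^ t * g) =
      rt m ^ (t + 1) * ((rt m ^ t)⁻¹ * swt m c * rt m ^ t * g) := by
    rw [← rt_mul_swt, pow_succ']
    group
  rw [h2] at h1
  exact h1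

theorem SA_mono (m t : ℕ) {g : Perm (Fin (2 * m))} (hg : g ∈ SA m t) : g ∈ SA m (t + 1) := by
  have h := SA_gen m t (fun _ => false) hg
  have h1 : swt m (fun _ => false) = 1 := by
    ext1 x
    rw [swt_apply]
    simp
  rw [h1] at h
  simpa using h

theorem SA_le (m : ℕ) {t t' : ℕ} (ht : t ≤ t') {g : Perm (Fin (2 * m))} (hg : g ∈ SA m t) :
    g ∈ SA m t' := by
  induction ht with
  | refl => exact hg
  | step _ ih => exact SA_mono m _ ih

theorem exists_SA (m : ℕ) (hm : 1 ≤ m) (g : Perm (Fin (2 * m))) : ∃ t, g ∈ SA m t := by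
  have hg : g ∈ Subgroup.closure (gens m) := by rw [closure_gens m hm]; trivial
  have key : ∀ x ∈ gens m, ∀ y : Perm (Fin (2 * m)), (∃ t, y ∈ SA m t) →
      ∃ t, x * y ∈ SA m t := by
    rintro x ⟨s, c, rfl⟩ y ⟨t, ht⟩
    have hpos : 0 < orderOf (rt m) := orderOf_pos _
    have h1 : t ≤ s + orderOf (rt m) * t := by nlinarith
    have h2 := SA_gen m _ c (SA_le m h1 ht)
    rw [pow_add, pow_mul, pow_orderOf_eq_one, one_pow, mul_one] at h2
    exact ⟨_, h2⟩
  induction hg using Subgroup.closure_induction_left with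
  | one =>
    refine ⟨0, ?_⟩
    simp [SA, convPow]
  | mul_left x hx y _ ih => exact key x hx y ih
  | inv_mul_cancel x hx y _ ih =>
    refine key _ ?_ y ih
    obtain ⟨s, c, rfl⟩ := hx
    exact ⟨s, c, by rw [mul_inv_rev, mul_inv_rev, inv_inv, swt_inv, mul_assoc]⟩

theorem exists_full (m : ℕ) (hm : 1 ≤ m) : ∃ t, ∀ g, 0 < convPow (thorpLaw m) t g := by
  choose T hT using exists_SA m hm
  refine ⟨univ.sup T, fun g => ?_⟩
  have h1 := SA_le m (le_sup (f := T) (mem_univ ((rt m ^ (univ.sup T))⁻¹ * g)))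
    (hT ((rt m ^ (univ.sup T))⁻¹ * g))
  simpa [SA] using h1

/-! ### Doeblin -/

section group
variable {G : Type*} [Group G] [Fintype G] [DecidableEq G]

omit [DecidableEq G] in
theorem conv_assoc (μ ν ξ : G → ℝ) : conv (conv μ ν) ξ = conv μ (conv ν ξ) := by
  funext g
  simp only [conv, Finset.sum_mul, Finset.mul_sum]
  rw [sum_comm]
  refine sum_congr rfl fun h _ => ?_
  refine Fintype.sum_equiv (Equiv.mulLeft h⁻¹) _ _ fun k => ?_
  simp [mul_assoc]

theorem convPow_add (μ : G → ℝ) (s t : ℕ) :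
    convPow μ (s + t) = conv (convPow μ s) (convPow μ t) := by
  induction s with
  | zero =>
    funext g
    simp [convPow, conv]
  | succ s ih =>
    rw [Nat.add_right_comm, convPow, ih, convPow, conv_assoc]

omit [DecidableEq G] in
theorem doeblin (μ ν : G → ℝ) (ε : ℝ) (hμ : ∀ g, ε / Fintype.card G ≤ μ g) (hμ1 : ∑ g, μ g = 1)
    (hν1 : ∑ g, ν g = 1) : tv (conv μ ν) (unif G) ≤ (1 - ε) * tv ν (unif G) := by
  have hc : (Fintype.card G : ℝ) ≠ 0 := by
    have : (0 : ℝ) < Fintype.card G := by exact_mod_cast Fintype.card_pos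
    exact this.ne'
  have h1 : ∀ g, conv μ ν g - unif G g =
      ∑ h, (μ h - ε / Fintype.card G) * (ν (h⁻¹ * g) - unif G (h⁻¹ * g)) := by
    intro g
    have e1 : ∑ h, ν (h⁻¹ * g) = 1 := by
      rw [← hν1]
      exact Fintype.sum_equiv ((Equiv.inv G).trans (Equiv.mulRight g)) _ _ fun h => rfl
    have e2 : ∀ h, (μ h - ε / Fintype.card G) * (ν (h⁻¹ * g) - unif G (h⁻¹ * g)) =
        μ h * ν (h⁻¹ * g) - μ h * (1 / Fintype.card G) -
          ε / Fintype.card G * ν (h⁻¹ * g) + ε / Fintype.card G * (1 / Fintype.card G) := by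
      intro h
      rw [unif]; ring
    simp only [e2]
    rw [sum_add_distrib, sum_sub_distrib, sum_sub_distrib, ← Finset.sum_mul, hμ1,
      ← Finset.mul_sum, e1, sum_const, card_univ, nsmul_eq_mul, conv, unif]
    field_simp
    ring
  have h2 : ∀ g, |conv μ ν g - unif G g| ≤
      ∑ h, (μ h - ε / Fintype.card G) * |ν (h⁻¹ * g) - unif G (h⁻¹ * g)| := by
    intro g
    rw [h1]
    refine (abs_sum_le_sum_abs _ _).trans (sum_le_sum fun h _ => ?_)
    rw [abs_mul, abs_of_nonneg (by linarith [hμ h])]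
  rw [tv, tv]
  have h3 : ∑ g, |conv μ ν g - unif G g| ≤ (1 - ε) * ∑ g, |ν g - unif G g| := by
    refine (sum_le_sum fun g _ => h2 g).trans (le_of_eq ?_)
    rw [sum_comm]
    have h4 : ∀ h, ∑ g, (μ h - ε / Fintype.card G) * |ν (h⁻¹ * g) - unif G (h⁻¹ * g)| =
        (μ h - ε / Fintype.card G) * ∑ g, |ν g - unif G g| := by
      intro h
      rw [← Finset.mul_sum]
      congr 1
      exact Fintype.sum_equiv (Equiv.mulLeft h⁻¹) _ _ fun g => rfl
    simp only [h4]
    rw [← Finset.sum_mul, sum_sub_distrib, hμ1, sum_const, card_univ, nsmul_eq_mul]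
    congr 1
    field_simp
  linarith

theorem tv_pow_le (μ : G → ℝ) (hμ1 : ∑ g, μ g = 1) (t : ℕ) (ε : ℝ) (hε : ε ≤ 1)
    (hμ : ∀ g, ε / Fintype.card G ≤ convPow μ t g) (k : ℕ) :
    tv (convPow μ (t * k)) (unif G) ≤ (1 - ε) ^ k * tv (convPow μ 0) (unif G) := by
  induction k with
  | zero => simp
  | succ k ih =>
    rw [mul_add, mul_one, add_comm, convPow_add, pow_succ', mul_assoc]
    refine (doeblin _ _ ε hμ (sum_convPow μ hμ1 t) (sum_convPow μ hμ1 _)).trans ?_
    exact mul_le_mul_of_nonneg_left ih (by linarith)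

end group

/-- Some number of shuffles is enough. -/
theorem exists_mix (m : ℕ) (hm : 1 ≤ m) :
    ∃ t, tv (convPow (thorpLaw m) t) (unif (Perm (Fin (2 * m)))) ≤ 1 / 4 := by
  obtain ⟨t, ht⟩ := exists_full m hm
  set G := Perm (Fin (2 * m)) with hG
  have hc : (0 : ℝ) < Fintype.card G := by exact_mod_cast Fintype.card_pos
  obtain ⟨g0, _, hg0⟩ := exists_min_image (univ : Finset G) (convPow (thorpLaw m) t) ⟨1, mem_univ _⟩
  set δ := convPow (thorpLaw m) t g0 with hδ
  have hδ0 : 0 < δ := ht g0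
  set ε := min (Fintype.card G * δ) 1 with hε
  have hε0 : 0 < ε := lt_min (by positivity) one_pos
  have hε1 : ε ≤ 1 := min_le_right _ _
  have hlow : ∀ g, ε / Fintype.card G ≤ convPow (thorpLaw m) t g := by
    intro g
    refine le_trans ?_ (hg0 g (mem_univ g))
    rw [div_le_iff₀ hc, mul_comm]
    exact min_le_left _ _
  have h1 := tv_pow_le (thorpLaw m) (sum_thorpLaw m) t ε hε1 hlow
  have hT0 : 0 ≤ tv (convPow (thorpLaw m) 0) (unif G) := by
    rw [tv]
    positivity
  obtain ⟨k, hk⟩ := exists_pow_lt_of_lt_one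
    (show (0 : ℝ) < (1 / 4) / (tv (convPow (thorpLaw m) 0) (unif G) + 1) by positivity)
    (show 1 - ε < 1 by linarith)
  refine ⟨t * k, (h1 k).trans ?_⟩
  have h2 : (1 - ε) ^ k * tv (convPow (thorpLaw m) 0) (unif G) ≤
      (1 / 4) / (tv (convPow (thorpLaw m) 0) (unif G) + 1) *
        tv (convPow (thorpLaw m) 0) (unif G) :=
    mul_le_mul_of_nonneg_right hk.le hT0
  refine h2.trans ?_
  rw [div_mul_eq_mul_div, div_le_iff₀ (by positivity)]
  linarith

end Vale.Agent.P162.H72
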