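import Vale.Agent.P162.H474.Basic

/-!
# P162: one round of the Thorp shuffle is the butterfly operator

`rot d : Perm (X d)` rotates the bits of a position (top bit to the end).  For every
representation `ρ` of `Perm (X (d + 1))`, `(ρ rot * P ρ) ^ (d + 1) = T (d + 1) ρ`.
-/

open Finset Equiv
open Vale.Agent.P162.H474 (X hf P T hf_apply_eq hf_apply_ne hf_commute card_X)

namespace Vale.Agent.P162.H72

theorem apply_inv_self {α : Type*} (f : Perm α) (x : α) : f (f⁻¹ x) = x := by
  rw [← Perm.mul_apply, mul_inv_cancel, Perm.one_apply]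

/-- The string of bits of a position, top bit first. -/
def cd : ∀ d, X d ≃ (Fin d → Bool)
  | 0 => (Equiv.ofUnique Unit (Fin 0 → Bool) : Unit ≃ (Fin 0 → Bool))
  | d + 1 => ((Equiv.prodCongr (Equiv.refl Bool) (cd d)).trans (Fin.consEquiv fun _ => Bool) :
      Bool × X d ≃ (Fin (d + 1) → Bool))

theorem cd_succ (d : ℕ) (b : Bool) (x : X d) :
    cd (d + 1) ((b, x) : Bool × X d) = Fin.cons b (cd d x) := rfl

theorem cd_zero_coord (d : ℕ) (z : Bool × X d) :
    cd (d + 1) z 0 = z.1 := rfl

theorem cd_succ_coord (d : ℕ) (z : Bool × X d) (i : Fin d) :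
    cd (d + 1) z i.succ = cd d z.2 i := rfl

/-- Rotation of the bits: the top bit becomes the last bit. -/
def rot (d : ℕ) : Perm (X d) :=
  ((cd d).trans (Equiv.arrowCongr (finRotate d).symm (Equiv.refl Bool))).trans (cd d).symm

theorem cd_rot (d : ℕ) (z : X d) (i : Fin d) : cd d (rot d z) i = cd d z (finRotate d i) := by
  simp [rot, Equiv.arrowCongr]

theorem cd_rot_pow (d : ℕ) (k : ℕ) (z : X d) (i : Fin d) :
    cd d ((rot d ^ k) z) i = cd d z ((finRotate d ^ k) i) := by
  induction k generalizing z with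
  | zero => simp
  | succ k ih =>
    rw [pow_succ, Perm.mul_apply, ih, cd_rot, pow_succ', Perm.mul_apply]

theorem val_finRotate_pow (d : ℕ) (k : ℕ) (i : Fin (d + 1)) :
    (((finRotate (d + 1) ^ k) i : Fin (d + 1)) : ℕ) = (i + k) % (d + 1) := by
  induction k with
  | zero => simp [Nat.mod_eq_of_lt i.2]
  | succ k ih =>
    rw [pow_succ', Perm.mul_apply, finRotate_apply, Fin.val_add, ih, Fin.val_one',
      ← Nat.add_mod, add_assoc]

theorem rot_pow_self (d : ℕ) : rot (d + 1) ^ (d + 1) = 1 := by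
  ext1 z
  apply (cd (d + 1)).injective
  funext i
  rw [cd_rot_pow, Perm.one_apply]
  have h : (finRotate (d + 1) ^ (d + 1)) i = i := by
    apply Fin.ext
    rw [val_finRotate_pow, Nat.add_mod_right, Nat.mod_eq_of_lt i.2]
  rw [h]

section avg
variable {G : Type*} [Group G] [DecidableEq G] {A : Type*} [Ring A] [Algebra ℝ A]

/-- The average of `ρ` over a finite set. -/
noncomputable def avg (S : Finset G) (ρ : G →* A) : A := (S.card : ℝ)⁻¹ • ∑ g ∈ S, ρ g

theorem avg_image {ι : Type*} [DecidableEq ι] (S : Finset ι) (f : ι → G) (hf : Function.Injective f)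
    (ρ : G →* A) : avg (S.image f) ρ = (S.card : ℝ)⁻¹ • ∑ i ∈ S, ρ (f i) := by
  rw [avg, card_image_of_injective _ hf, sum_image (fun _ _ _ _ h => hf h)]

omit [DecidableEq G] in
theorem avg_commute {S S' : Finset G} {ρ ρ' : G →* A}
    (h : ∀ g g', Commute (ρ g) (ρ' g')) : Commute (avg S ρ) (avg S' ρ') := by
  unfold avg
  refine Commute.smul_left (Commute.smul_right ?_ _) _
  exact Commute.sum_left _ _ _ fun i _ => Commute.sum_right _ _ _ fun j _ => h i j

end avg

/-- The permutations that change at most the coordinate `j`. -/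
noncomputable def Hs (d j : ℕ) : Finset (Perm (X d)) :=
  open Classical in univ.filter fun σ => ∀ x : X d, ∀ i : Fin d, (i : ℕ) ≠ j →
    cd d (σ x) i = cd d x i

theorem mem_Hs {d j : ℕ} {σ : Perm (X d)} :
    σ ∈ Hs d j ↔ ∀ x : X d, ∀ i : Fin d, (i : ℕ) ≠ j → cd d (σ x) i = cd d x i := by
  simp [Hs]

/-- `q (k - 1) * ⋯ * q 1 * q 0`. -/
def down {A : Type*} [Monoid A] : ℕ → (ℕ → A) → A
  | 0, _ => 1
  | k + 1, q => q k * down k q

theorem down_succ' {A : Type*} [Monoid A] (k : ℕ) (q : ℕ → A) :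
    down (k + 1) q = down k (fun j => q (j + 1)) * q 0 := by
  induction k with
  | zero => simp [down]
  | succ k ih =>
    rw [down, ih, down, mul_assoc]

theorem down_congr {A : Type*} [Monoid A] (k : ℕ) (q q' : ℕ → A) (h : ∀ j < k, q j = q' j) :
    down k q = down k q' := by
  induction k with
  | zero => rfl
  | succ k ih =>
    rw [down, down, h k (Nat.lt_succ_self k), ih fun j hj => h j (by omega)]

theorem down_mul {A : Type*} [Monoid A] (k : ℕ) (a b : ℕ → A) (h : ∀ i j, Commute (a i) (b j)) :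
    down k (fun j => a j * b j) = down k a * down k b := by
  have h2 : ∀ k i, Commute (b i) (down k a) := by
    intro k i
    induction k with
    | zero => exact Commute.one_right _
    | succ k ih => exact Commute.mul_right (h k i).symm ih
  induction k with
  | zero => simp [down]
  | succ k ih =>
    simp only [down]
    rw [ih, mul_assoc, ← mul_assoc (b k), (h2 k k).eq]
    simp only [mul_assoc]

/-- `(r p)^k = r^k (r^{-(k-1)} p r^{k-1}) ⋯ (r^{-1} p r) p`. -/
theorem rot_mul_pow {A : Type*} [Monoid A] (r : Aˣ) (p : A) (k : ℕ) :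
    ((r : A) * p) ^ k = (r : A) ^ k * down k fun j => ((r⁻¹ ^ j : Aˣ) : A) * p * (r : A) ^ j := by
  induction k with
  | zero => simp [down]
  | succ k ih =>
    rw [pow_succ', ih, down]
    have h : (r : A) ^ k * ((r⁻¹ ^ k : Aˣ) : A) = 1 := by
      rw [← Units.val_pow_eq_pow_val, ← Units.val_mul, inv_pow, mul_inv_cancel, Units.val_one]
    calc (r : A) * p * ((r : A) ^ k * down k fun j => ((r⁻¹ ^ j : Aˣ) : A) * p * (r : A) ^ j)
        = (r : A) * 1 * p * ((r : A) ^ k *
          down k fun j => ((r⁻¹ ^ j : Aˣ) : A) * p * (r : A) ^ j) := by rw [mul_one]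
      _ = _ := by rw [← h, pow_succ']; simp only [mul_assoc]

/-- The flips of the top bit above `U`, as permutations of `X (d + 1)`. -/
def fl (d : ℕ) (U : Finset (X d)) : Perm (X (d + 1)) := H474.flip (β := X d) U

/-- The permutations of the half `b`, as permutations of `X (d + 1)`. -/
def hx (d : ℕ) (b : Bool) : Perm (X d) →* Perm (X (d + 1)) := hf (β := X d) b

/-- The position with top bit `b` and remaining bits `x`. -/
def mk {d : ℕ} (b : Bool) (x : X d) : X (d + 1) := ((b, x) : Bool × X d)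

/-- The top bit of a position. -/
def top {d : ℕ} (z : X (d + 1)) : Bool := (show Bool × X d from z).1

/-- The remaining bits of a position. -/
def rest {d : ℕ} (z : X (d + 1)) : X d := (show Bool × X d from z).2

@[simp] theorem top_mk {d : ℕ} (b : Bool) (x : X d) : top (mk b x) = b := rfl
@[simp] theorem rest_mk {d : ℕ} (b : Bool) (x : X d) : rest (mk b x) = x := rfl
@[simp] theorem mk_top_rest {d : ℕ} (z : X (d + 1)) : mk (top z) (rest z) = z := rfl

theorem X_ext {d : ℕ} {z w : X (d + 1)} (h1 : top z = top w) (h2 : rest z = rest w) : z = w :=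
  Prod.ext h1 h2

theorem cd_mk_zero (d : ℕ) (z : X (d + 1)) : cd (d + 1) z 0 = top z := rfl

theorem cd_mk_succ (d : ℕ) (z : X (d + 1)) (i : Fin d) :
    cd (d + 1) z i.succ = cd d (rest z) i := rfl

theorem fl_apply (d : ℕ) (U : Finset (X d)) (b : Bool) (x : X d) :
    fl d U (mk b x) = mk (xor b (decide (x ∈ U))) x := rfl

theorem hx_apply_eq (d : ℕ) (b : Bool) (σ : Perm (X d)) (x : X d) :
    hx d b σ (mk b x) = mk b (σ x) := hf_apply_eq (β := X d) b σ x

theorem hx_apply_ne (d : ℕ) {b c : Bool} (h : c ≠ b) (σ : Perm (X d)) (x : X d) :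
    hx d b σ (mk c x) = mk c x := hf_apply_ne (β := X d) h σ x

theorem fl_mem_Hs (d : ℕ) (U : Finset (X d)) : fl d U ∈ Hs (d + 1) 0 := by
  rw [mem_Hs]
  intro z i
  refine Fin.cases ?_ ?_ i
  · intro h
    exact absurd rfl h
  · intro i _
    rfl

theorem fl_injective (d : ℕ) : Function.Injective (fl d) := by
  intro U W h
  ext x
  have h1 := congrArg (fun σ : Perm (X (d + 1)) => top (σ (mk false x))) h
  simpa [fl_apply] using h1

theorem Hs_zero (d : ℕ) : Hs (d + 1) 0 = univ.image (fl d) := by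
  ext σ
  simp only [mem_image, mem_univ, true_and]
  constructor
  · intro h
    rw [mem_Hs] at h
    have h2 : ∀ z : X (d + 1), rest (σ z) = rest z := by
      intro z
      apply (cd d).injective
      funext i
      exact h z i.succ (by simp)
    refine ⟨univ.filter fun x => top (σ (mk false x)) = true, ?_⟩
    ext1 z
    rw [← mk_top_rest z, fl_apply]
    refine X_ext ?_ (h2 (mk (top z) (rest z))).symm
    have h3 : top (σ (mk false (rest z))) ≠ top (σ (mk true (rest z))) := by
      intro h4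
      have h5 : σ (mk false (rest z)) = σ (mk true (rest z)) :=
        X_ext h4 ((h2 (mk false (rest z))).trans (h2 (mk true (rest z))).symm)
      have h6 := congrArg top (σ.injective h5)
      simp at h6
    cases top z
    · simp
    · simp only [mem_filter, mem_univ, true_and, top_mk, Bool.true_bne]
      cases h6 : top (σ (mk false (rest z))) <;> cases h7 : top (σ (mk true (rest z))) <;>
        simp_all
  · rintro ⟨U, rfl⟩
    exact fl_mem_Hs d U

/-- The restriction of a permutation that fixes the top bit to the half `b`. -/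
def res {d : ℕ} (b : Bool) (σ : Perm (X (d + 1))) (h : ∀ z, top (σ z) = top z) :
    Perm (X d) where
  toFun x := rest (σ (mk b x))
  invFun x := rest (σ⁻¹ (mk b x))
  left_inv x := by
    have h1 : mk b (rest (σ (mk b x))) = σ (mk b x) := X_ext (by simp [h]) (by simp)
    show rest (σ⁻¹ (mk b (rest (σ (mk b x))))) = x
    rw [h1]
    simp
  right_inv x := by
    have h0 : top (σ⁻¹ (mk b x)) = b := by
      have := h (σ⁻¹ (mk b x))
      simpa using this.symm
    have h1 : mk b (rest (σ⁻¹ (mk b x))) = σ⁻¹ (mk b x) := X_ext h0.symm rfl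
    show rest (σ (mk b (rest (σ⁻¹ (mk b x))))) = x
    rw [h1]
    simp

theorem res_apply {d : ℕ} (b : Bool) (σ : Perm (X (d + 1))) (h : ∀ z, top (σ z) = top z)
    (x : X d) : res b σ h x = rest (σ (mk b x)) := rfl

theorem hx_mul_apply (d : ℕ) (σ τ : Perm (X d)) (b : Bool) (x : X d) :
    (hx d false σ * hx d true τ) (mk b x) = mk b ((if b then τ else σ) x) := by
  cases b
  · rw [Perm.mul_apply, hx_apply_ne d (by decide), hx_apply_eq]
    rfl
  · rw [Perm.mul_apply, hx_apply_eq, hx_apply_ne d (by decide)]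
    rfl

theorem hx_mul_injective (d : ℕ) :
    Function.Injective fun p : Perm (X d) × Perm (X d) => hx d false p.1 * hx d true p.2 := by
  rintro ⟨σ, τ⟩ ⟨σ', τ'⟩ h
  have h1 : ∀ z, (hx d false σ * hx d true τ) z = (hx d false σ' * hx d true τ') z := fun z => by
    have h0 : hx d false σ * hx d true τ = hx d false σ' * hx d true τ' := h
    rw [h0]
  refine Prod.ext ?_ ?_
  · ext1 x
    have h2 := h1 (mk false x)
    rw [hx_mul_apply, hx_mul_apply] at h2
    simpa using congrArg rest h2
  · ext1 x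
    have h2 := h1 (mk true x)
    rw [hx_mul_apply, hx_mul_apply] at h2
    simpa using congrArg rest h2

theorem Hs_succ (d j : ℕ) : Hs (d + 1) (j + 1) =
    (Hs d j ×ˢ Hs d j).image fun p => hx d false p.1 * hx d true p.2 := by
  ext π
  simp only [mem_image, Prod.exists, mem_product]
  constructor
  · intro h
    rw [mem_Hs] at h
    have h2 : ∀ z : X (d + 1), top (π z) = top z := by
      intro z
      exact h z 0 (by simp)
    have h3 : ∀ b, res b π h2 ∈ Hs d j := by
      intro b
      rw [mem_Hs]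
      intro x i hi
      rw [res_apply]
      exact h (mk b x) i.succ (by simpa using hi)
    refine ⟨_, _, ⟨h3 false, h3 true⟩, ?_⟩
    ext1 z
    rw [← mk_top_rest z, hx_mul_apply]
    refine X_ext ?_ ?_
    · rw [h2]; simp
    · cases top z <;> simp [res_apply]
  · rintro ⟨σ, τ, ⟨hσ, hτ⟩, rfl⟩
    rw [mem_Hs] at hσ hτ ⊢
    intro z i
    rw [← mk_top_rest z, hx_mul_apply]
    refine Fin.cases ?_ ?_ i
    · intro _
      rfl
    · intro i hi
      rw [cd_mk_succ, cd_mk_succ]
      simp only [rest_mk]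
      have hi' : (i : ℕ) ≠ j := by simpa using hi
      cases top z
      · exact hσ _ _ hi'
      · exact hτ _ _ hi'

theorem Hs_eq (d j : ℕ) (hj : j < d + 1) : Hs (d + 1) j =
    (Hs (d + 1) 0).image fun σ => (rot (d + 1))⁻¹ ^ j * σ * rot (d + 1) ^ j := by
  ext π
  simp only [mem_image]
  have key : ∀ (π : Perm (X (d + 1))) (z : X (d + 1)) (i : Fin (d + 1)),
      cd (d + 1) ((rot (d + 1) ^ j * π * (rot (d + 1))⁻¹ ^ j) z) i =
        cd (d + 1) (π (((rot (d + 1))⁻¹ ^ j) z)) ((finRotate (d + 1) ^ j) i) := by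
    intro π z i
    rw [Perm.mul_apply, Perm.mul_apply, cd_rot_pow]
  have key2 : ∀ (z : X (d + 1)) (i : Fin (d + 1)),
      cd (d + 1) (((rot (d + 1))⁻¹ ^ j) z) ((finRotate (d + 1) ^ j) i) = cd (d + 1) z i := by
    intro z i
    rw [← cd_rot_pow]
    simp
  constructor
  · intro h
    refine ⟨rot (d + 1) ^ j * π * (rot (d + 1))⁻¹ ^ j, ?_, ?_⟩
    · rw [mem_Hs] at h ⊢
      intro z i hi
      rw [key, h, key2]
      rw [val_finRotate_pow]
      intro h2
      have h3 : (i : ℕ) % (d + 1) = 0 := by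
        have : (i + j) % (d + 1) = (0 + j) % (d + 1) := by
          rw [h2, zero_add, Nat.mod_eq_of_lt hj]
        exact (Nat.ModEq.add_right_cancel' j this)
      rw [Nat.mod_eq_of_lt i.2] at h3
      exact hi h3
    · simp [mul_assoc]
  · rintro ⟨σ, hσ, rfl⟩
    rw [mem_Hs] at hσ ⊢
    intro z i hi
    have h4 := key ((rot (d + 1))⁻¹ ^ j * σ * rot (d + 1) ^ j) ((rot (d + 1) ^ j) z)
      ((finRotate (d + 1) ^ j)⁻¹ i)
    have h5 := key2 ((rot (d + 1) ^ j) z) ((finRotate (d + 1) ^ j)⁻¹ i)
    have h6 : rot (d + 1) ^ j * ((rot (d + 1))⁻¹ ^ j * σ * rot (d + 1) ^ j) *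
        (rot (d + 1))⁻¹ ^ j = σ := by simp [mul_assoc]
    rw [h6, apply_inv_self] at h4
    rw [apply_inv_self] at h5
    have h7 : ((rot (d + 1))⁻¹ ^ j) ((rot (d + 1) ^ j) z) = z := by
      rw [← Perm.mul_apply]; simp
    rw [h7] at h4 h5
    rw [← h4, h5]
    apply hσ
    intro h8
    apply hi
    have h9 := val_finRotate_pow d j ((finRotate (d + 1) ^ j)⁻¹ i)
    rw [apply_inv_self, h8, zero_add, Nat.mod_eq_of_lt hj] at h9
    exact h9

variable {V : Type*} [NormedAddCommGroup V] [InnerProductSpace ℝ V]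

theorem P_eq (d : ℕ) (ρ : Perm (X (d + 1)) →* (V →L[ℝ] V)) :
    P (β := X d) ρ = avg (Hs (d + 1) 0) ρ := by
  rw [Hs_zero, avg_image _ _ (fl_injective d)]
  simp only [card_univ, Fintype.card_finset, Nat.cast_pow, Nat.cast_ofNat]
  rfl

theorem avg_Hs_succ (d j : ℕ) (ρ : Perm (X (d + 1)) →* (V →L[ℝ] V)) :
    avg (Hs (d + 1) (j + 1)) ρ =
      avg (Hs d j) (ρ.comp (hx d false)) * avg (Hs d j) (ρ.comp (hx d true)) := by
  rw [Hs_succ, avg_image _ _ (hx_mul_injective d), avg, avg, card_product, sum_product,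
    smul_mul_smul_comm, Finset.sum_mul_sum]
  simp

theorem T_eq_down (d : ℕ) (ρ : Perm (X d) →* (V →L[ℝ] V)) :
    T d ρ = down d fun j => avg (Hs d j) ρ := by
  induction d with
  | zero => rfl
  | succ d ih =>
    have h1 : T (d + 1) ρ = T d (ρ.comp (hx d false)) * T d (ρ.comp (hx d true)) *
      P (β := X d) ρ := rfl
    rw [h1, ih, ih, P_eq, down_succ', ← down_mul]
    · simp only [avg_Hs_succ]
    · intro i j
      apply avg_commute
      intro g g'
      have h2 : Commute (hx d false g) (hx d true g') := hf_commute (β := X d) g g'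
      exact h2.map ρ

/-- One round (`d + 1` shuffles of `2 ^ (d + 1)` cards) is the butterfly operator. -/
theorem round_eq (d : ℕ) (ρ : Perm (X (d + 1)) →* (V →L[ℝ] V)) :
    (ρ (rot (d + 1)) * P (β := X d) ρ) ^ (d + 1) = T (d + 1) ρ := by
  let r : (V →L[ℝ] V)ˣ := ρ.toHomUnits (rot (d + 1))
  have hr : (r : V →L[ℝ] V) = ρ (rot (d + 1)) := rfl
  have hr2 : ∀ j : ℕ, ((r⁻¹ ^ j : (V →L[ℝ] V)ˣ) : V →L[ℝ] V) = ρ ((rot (d + 1))⁻¹ ^ j) := by
    intro j
    have : r⁻¹ ^ j = ρ.toHomUnits ((rot (d + 1))⁻¹ ^ j) := by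
      rw [map_pow, map_inv]
    rw [this]
    rfl
  rw [← hr, rot_mul_pow, hr, ← map_pow, rot_pow_self, map_one, one_mul, T_eq_down]
  apply down_congr
  intro j hj
  rw [Hs_eq d j hj, avg_image, P_eq, avg, hr2, ← map_pow, mul_smul_comm, smul_mul_assoc,
    Finset.mul_sum, Finset.sum_mul]
  · simp only [map_mul]
  · intro σ τ h
    simpa using h

end Vale.Agent.P162.H72
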