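import Vale.Agent.P162.Defs
import Vale.Agent.P162.H72.Round

/-!
# P162: the law of `d + 1` Thorp shuffles and the butterfly operator; chi-square bound
-/

open Finset Equiv
open Vale.Agent.P162.H474 (X hf P T card_X)

namespace Vale.Agent.P162.H72

/-! ### Positions as numbers -/

/-- The number of a position (from the top of the deck). -/
def val : ∀ d, X d → ℕ
  | 0, _ => 0
  | d + 1, z => (if top z then 2 ^ d else 0) + val d (rest z)

theorem val_mk (d : ℕ) (b : Bool) (x : X d) :
    val (d + 1) (mk b x) = (if b then 2 ^ d else 0) + val d x := rfl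

theorem val_lt : ∀ (d : ℕ) (x : X d), val d x < 2 ^ d
  | 0, _ => by simp [val]
  | d + 1, z => by
    have h := val_lt d (rest z)
    rw [← mk_top_rest z, val_mk]
    have : 2 ^ (d + 1) = 2 ^ d + 2 ^ d := by ring
    split <;> omega

theorem val_injective : ∀ d : ℕ, Function.Injective (val d)
  | 0 => fun x y _ => by
    rcases x with ⟨⟩; rcases y with ⟨⟩; rfl
  | d + 1 => fun z w h => by
    have h1 := val_lt d (rest z)
    have h2 := val_lt d (rest w)
    rw [← mk_top_rest z, ← mk_top_rest w, val_mk, val_mk] at h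
    have h3 : top z = top w := by
      cases h4 : top z <;> cases h5 : top w <;> simp [h4, h5] at h ⊢ <;> omega
    refine X_ext h3 (val_injective d ?_)
    rw [h3] at h
    omega

/-- Positions in a deck of `2 ^ d` cards. -/
noncomputable def en (d : ℕ) : X d ≃ Fin (2 ^ d) :=
  Equiv.ofBijective (fun x => ⟨val d x, val_lt d x⟩)
    ((Fintype.bijective_iff_injective_and_card _).2
      ⟨fun x y h => val_injective d (by simpa using h), by rw [card_X, Fintype.card_fin]⟩)

theorem val_lt' (d : ℕ) (x : X (d + 1)) : val (d + 1) x < 2 * 2 ^ d := by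
  have := val_lt (d + 1) x
  rw [pow_succ] at this
  omega

/-- Positions in a deck of `2 * 2 ^ d` cards. -/
noncomputable def en' (d : ℕ) : X (d + 1) ≃ Fin (2 * 2 ^ d) :=
  Equiv.ofBijective (fun x => ⟨val (d + 1) x, val_lt' d x⟩)
    ((Fintype.bijective_iff_injective_and_card _).2
      ⟨fun x y h => val_injective (d + 1) (by simpa using h), by
        rw [card_X, Fintype.card_fin, pow_succ, mul_comm]⟩)

theorem val_en (d : ℕ) (x : X d) : (en d x : ℕ) = val d x := rfl

theorem val_en' (d : ℕ) (x : X (d + 1)) : (en' d x : ℕ) = val (d + 1) x := rfl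

/-- Append a bit at the end. -/
def app : ∀ d, X d → Bool → X (d + 1)
  | 0, x, b => mk b x
  | d + 1, z, b => mk (top z) (app d (rest z) b)

theorem val_app : ∀ (d : ℕ) (x : X d) (b : Bool),
    val (d + 1) (app d x b) = 2 * val d x + (if b then 1 else 0)
  | 0, x, b => by
    simp [app, val]
  | d + 1, z, b => by
    rw [app, val_mk, val_app d, ← mk_top_rest z, val_mk, top_mk, rest_mk]
    cases top z
    · simp
    · simp [pow_succ]; ring

theorem cd_app : ∀ (d : ℕ) (x : X d) (b : Bool),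
    cd (d + 1) (app d x b) = (Fin.snoc (cd d x) b : Fin (d + 1) → Bool)
  | 0, x, b => by
    funext i
    have : i = Fin.last 0 := by
      apply Fin.ext
      have := i.2
      simp only [Fin.val_last]
      omega
    subst this
    rw [Fin.snoc_last]
    rfl
  | d + 1, z, b => by
    have h1 : cd (d + 2) (app (d + 1) z b) = (Fin.cons (top z) (cd (d + 1) (app d (rest z) b)) :
      Fin (d + 2) → Bool) := rfl
    have h2 : cd (d + 1) z = (Fin.cons (top z) (cd d (rest z)) : Fin (d + 1) → Bool) := rfl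
    rw [h1, cd_app d, h2, Fin.cons_snoc_eq_snoc_cons]

theorem rot_mk (d : ℕ) (b : Bool) (x : X d) : rot (d + 1) (mk b x) = app d x b := by
  apply (cd (d + 1)).injective
  funext i
  rw [cd_rot, cd_app, finRotate_apply]
  refine Fin.lastCases ?_ ?_ i
  · rw [Fin.snoc_last, Fin.last_add_one]
    rfl
  · intro j
    rw [Fin.snoc_castSucc, Fin.coeSucc_eq_succ]
    rfl

/-- The coins of the shuffle that correspond to the set `U`. -/
noncomputable def coins (d : ℕ) (U : Finset (X d)) : Fin (2 ^ d) → Bool :=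
  fun i => decide ((en d).symm i ∈ U)

theorem coins_bijective (d : ℕ) : Function.Bijective (coins d) := by
  constructor
  · intro U W h
    ext x
    have h1 := congrFun h (en d x)
    simpa [coins] using h1
  · intro c
    refine ⟨univ.filter fun x => c (en d x) = true, ?_⟩
    funext i
    simp [coins]

theorem shuffle_val (d : ℕ) (U : Finset (X d)) (z : X (d + 1)) :
    shuffle (2 ^ d) (coins d U) (en' d z) = en' d (rot (d + 1) (fl d U z)) := by
  apply Fin.ext
  rw [← mk_top_rest z, fl_apply, rot_mk, val_en', val_app]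
  have h1 := val_lt d (rest z)
  have h2 : ∀ h : val d (rest z) < 2 ^ d, coins d U ⟨val d (rest z), h⟩ = decide (rest z ∈ U) := by
    intro h
    have h3 : (⟨val d (rest z), h⟩ : Fin (2 ^ d)) = en d (rest z) := rfl
    rw [h3, coins, Equiv.symm_apply_apply]
  cases h4 : top z
  · have h5 : (en' d (mk false (rest z)) : ℕ) = val d (rest z) := by
      rw [val_en', val_mk]; simp
    simp only [shuffle, Equiv.coe_fn_mk, h5, h1, dif_pos, h2, Bool.false_bne]
  · have h5 : (en' d (mk true (rest z)) : ℕ) = 2 ^ d + val d (rest z) := by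
      rw [val_en', val_mk]; simp
    have h6 : ¬ (2 ^ d + val d (rest z) < 2 ^ d) := by omega
    simp only [shuffle, Equiv.coe_fn_mk, h5, h6, dif_neg, not_false_iff, Nat.add_sub_cancel_left,
      h2, Bool.true_bne]
    by_cases h7 : rest z ∈ U <;> simp [h7]

/-- Transport of permutations. -/
noncomputable def tr (d : ℕ) : Perm (X (d + 1)) ≃* Perm (Fin (2 * 2 ^ d)) :=
  (en' d).permCongrHom

theorem tr_apply (d : ℕ) (σ : Perm (X (d + 1))) (x : X (d + 1)) :
    tr d σ (en' d x) = en' d (σ x) := by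
  simp [tr, Equiv.permCongrHom]

theorem tr_rot_mul_fl (d : ℕ) (U : Finset (X d)) :
    tr d (rot (d + 1) * fl d U) = shuffle (2 ^ d) (coins d U) := by
  ext1 y
  obtain ⟨z, rfl⟩ := (en' d).surjective y
  rw [tr_apply, shuffle_val, Perm.mul_apply]

/-! ### Laws on finite groups -/

section group
variable {G : Type*} [Group G] [Fintype G] [DecidableEq G]

omit [DecidableEq G] in
theorem conv_comp {H : Type*} [Group H] [Fintype H] (φ : H ≃* G) (μ ν : G → ℝ) :
    conv (μ ∘ φ) (ν ∘ φ) = conv μ ν ∘ φ := by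
  funext h
  simp only [conv, Function.comp_apply, map_mul, map_inv]
  exact Fintype.sum_equiv φ.toEquiv _ _ fun x => rfl

theorem convPow_comp {H : Type*} [Group H] [Fintype H] [DecidableEq H] (φ : H ≃* G) (μ : G → ℝ)
    (t : ℕ) : convPow (μ ∘ φ) t = convPow μ t ∘ φ := by
  induction t with
  | zero =>
    funext h
    simp [convPow]
  | succ t ih =>
    rw [convPow, ih, conv_comp, convPow]

omit [Group G] [DecidableEq G] in
theorem tv_comp {H : Type*} [Group H] [Fintype H] [Group G] (φ : H ≃* G) (μ ν : G → ℝ) :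
    tv (μ ∘ φ) (ν ∘ φ) = tv μ ν := by
  simp only [tv, Function.comp_apply]
  congr 1
  exact Fintype.sum_equiv φ.toEquiv _ _ fun x => rfl

omit [DecidableEq G] in
theorem sum_conv (μ ν : G → ℝ) : ∑ g, conv μ ν g = (∑ g, μ g) * ∑ g, ν g := by
  simp only [conv]
  rw [sum_comm, Finset.sum_mul]
  refine sum_congr rfl fun h _ => ?_
  rw [← Finset.mul_sum]
  congr 1
  exact Fintype.sum_equiv (Equiv.mulLeft h⁻¹) _ _ fun x => rfl

theorem sum_convPow (μ : G → ℝ) (hμ : ∑ g, μ g = 1) (t : ℕ) : ∑ g, convPow μ t g = 1 := by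
  induction t with
  | zero => simp [convPow]
  | succ t ih => rw [convPow, sum_conv, hμ, ih, one_mul]

/-- The left regular representation. -/
noncomputable def reg (G : Type*) [Group G] [Fintype G] :
    G →* (EuclideanSpace ℝ G →L[ℝ] EuclideanSpace ℝ G) where
  toFun g := ((LinearIsometryEquiv.piLpCongrLeft 2 ℝ ℝ (Equiv.mulLeft g)).toContinuousLinearEquiv :
    EuclideanSpace ℝ G →L[ℝ] EuclideanSpace ℝ G)
  map_one' := by
    ext f h
    simp [LinearIsometryEquiv.piLpCongrLeft_apply, Equiv.piCongrLeft']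
    rfl
  map_mul' g g' := by
    ext f h
    simp [LinearIsometryEquiv.piLpCongrLeft_apply, Equiv.piCongrLeft']
    rfl

omit [DecidableEq G] in
theorem reg_apply (g : G) (f : EuclideanSpace ℝ G) (h : G) : reg G g f h = f (g⁻¹ * h) := by
  simp [reg, LinearIsometryEquiv.piLpCongrLeft_apply, Equiv.piCongrLeft']

omit [DecidableEq G] in
theorem norm_reg (g : G) (f : EuclideanSpace ℝ G) : ‖reg G g f‖ = ‖f‖ :=
  (LinearIsometryEquiv.piLpCongrLeft 2 ℝ ℝ (Equiv.mulLeft g)).norm_map f

/-- The vector of a law. -/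
noncomputable def vec (μ : G → ℝ) : EuclideanSpace ℝ G := WithLp.toLp 2 μ

omit [Group G] [Fintype G] [DecidableEq G] in
theorem vec_apply (μ : G → ℝ) (g : G) : vec μ g = μ g := rfl

/-- The operator of a law. -/
noncomputable def opr (μ : G → ℝ) : EuclideanSpace ℝ G →L[ℝ] EuclideanSpace ℝ G :=
  ∑ g, μ g • reg G g

omit [DecidableEq G] in
theorem opr_vec (μ ν : G → ℝ) : opr μ (vec ν) = vec (conv μ ν) := by
  ext g
  simp only [opr, _root_.sum_apply, _root_.smul_apply, vec_apply, conv]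
  rw [WithLp.ofLp_sum, Finset.sum_apply]
  refine sum_congr rfl fun h _ => ?_
  rw [PiLp.smul_apply, reg_apply, vec_apply, smul_eq_mul]

theorem vec_convPow (μ : G → ℝ) (t : ℕ) :
    vec (convPow μ t) = (opr μ ^ t) (EuclideanSpace.single 1 1) := by
  induction t with
  | zero =>
    ext g
    rw [vec_apply, convPow, pow_zero]
    simp
  | succ t ih =>
    rw [convPow, ← opr_vec, ih, pow_succ']
    rfl

omit [DecidableEq G] in
/-- The chi-square bound for the total variation distance. -/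
theorem tv_unif_le (μ : G → ℝ) (hμ : ∑ g, μ g = 1) :
    (2 * tv μ (unif G)) ^ 2 ≤ Fintype.card G * ‖vec μ‖ ^ 2 - 1 := by
  have hc : (0 : ℝ) < Fintype.card G := by exact_mod_cast Fintype.card_pos
  have h1 : 2 * tv μ (unif G) = ∑ g, |μ g - unif G g| := by rw [tv]; ring
  rw [h1]
  have h2 : (∑ g, |μ g - unif G g|) ^ 2 ≤ Fintype.card G * ∑ g, |μ g - unif G g| ^ 2 := by
    have := sq_sum_le_card_mul_sum_sq (s := (univ : Finset G)) (f := fun g => |μ g - unif G g|)
    simpa using this
  refine h2.trans (le_of_eq ?_)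
  have h3 : ‖vec μ‖ ^ 2 = ∑ g, μ g ^ 2 := by
    rw [EuclideanSpace.norm_sq_eq]
    simp [vec_apply]
  rw [h3]
  have h4 : ∑ g, |μ g - unif G g| ^ 2 = ∑ g, μ g ^ 2 - 1 / Fintype.card G := by
    have h5 : ∀ g, |μ g - unif G g| ^ 2 =
        μ g ^ 2 - 2 * (1 / Fintype.card G) * μ g + (1 / Fintype.card G : ℝ) ^ 2 := by
      intro g
      rw [sq_abs, unif]; ring
    simp only [h5]
    rw [sum_add_distrib, sum_sub_distrib, ← Finset.mul_sum, hμ, sum_const, card_univ,
      nsmul_eq_mul]
    field_simp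
    ring
  rw [h4]
  field_simp

end group

/-! ### The law of the Thorp shuffle -/

theorem sum_thorpLaw_smul (m : ℕ) {A : Type*} [AddCommGroup A] [Module ℝ A]
    (f : Perm (Fin (2 * m)) → A) :
    ∑ σ, thorpLaw m σ • f σ = ((1 : ℝ) / 2 ^ m) • ∑ c : Fin m → Bool, f (shuffle m c) := by
  rw [← Finset.sum_fiberwise univ (fun c => shuffle m c) (fun c => f (shuffle m c)),
    Finset.smul_sum]
  refine sum_congr rfl fun σ _ => ?_
  have h1 : ∑ c ∈ univ.filter (fun c : Fin m → Bool => shuffle m c = σ), f (shuffle m c) =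
      ∑ c ∈ univ.filter (fun c : Fin m → Bool => shuffle m c = σ), f σ :=
    sum_congr rfl fun c hc => by rw [(mem_filter.1 hc).2]
  rw [h1, sum_const, thorpLaw, ← Nat.cast_smul_eq_nsmul ℝ, smul_smul]
  congr 1
  ring

theorem sum_thorpLaw (m : ℕ) : ∑ σ, thorpLaw m σ = 1 := by
  have h := sum_thorpLaw_smul m (fun _ => (1 : ℝ))
  simpa using h

theorem rot_mul_P {V : Type*} [NormedAddCommGroup V] [InnerProductSpace ℝ V] (d : ℕ)
    (ρ : Perm (X (d + 1)) →* (V →L[ℝ] V)) :
    ((1 : ℝ) / 2 ^ (2 ^ d)) • ∑ U : Finset (X d), ρ (rot (d + 1) * fl d U) =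
      ρ (rot (d + 1)) * P (β := X d) ρ := by
  have h3 : P (β := X d) ρ =
      ((2 : ℝ) ^ Fintype.card (X d))⁻¹ • ∑ U : Finset (X d), ρ (fl d U) := rfl
  refine Eq.trans ?_ (congrArg (fun x => ρ (rot (d + 1)) * x) h3.symm)
  show _ = ρ (rot (d + 1)) * (((2 : ℝ) ^ Fintype.card (X d))⁻¹ • ∑ U : Finset (X d), ρ (fl d U))
  rw [mul_smul_comm, Finset.mul_sum, card_X, one_div]
  simp only [map_mul]

theorem opr_thorp (d : ℕ) : opr (thorpLaw (2 ^ d) ∘ tr d) =
    reg _ (rot (d + 1)) * P (β := X d) (reg (Perm (X (d + 1)))) := by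
  have h1 : opr (thorpLaw (2 ^ d) ∘ tr d) =
      ∑ σ : Perm (Fin (2 * 2 ^ d)), thorpLaw (2 ^ d) σ • reg (Perm (X (d + 1))) ((tr d).symm σ) := by
    rw [opr]
    exact Fintype.sum_equiv (tr d).toEquiv _ _ fun x => by simp
  have h2 : ∑ c : Fin (2 ^ d) → Bool, reg (Perm (X (d + 1))) ((tr d).symm (shuffle (2 ^ d) c)) =
      ∑ U : Finset (X d), reg (Perm (X (d + 1))) (rot (d + 1) * fl d U) := by
    symm
    refine Fintype.sum_equiv (Equiv.ofBijective _ (coins_bijective d)) _ _ fun U => ?_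
    rw [Equiv.ofBijective_apply, ← tr_rot_mul_fl, MulEquiv.symm_apply_apply]
  refine h1.trans ?_
  rw [sum_thorpLaw_smul (2 ^ d) (fun σ => reg (Perm (X (d + 1))) ((tr d).symm σ)), h2]
  exact rot_mul_P d _

/-- The law of `(d + 1) * r` Thorp shuffles of `2 ^ (d + 1)` cards. -/
theorem vec_thorp (d r : ℕ) : vec (convPow (thorpLaw (2 ^ d) ∘ tr d) ((d + 1) * r)) =
    (T (d + 1) (reg (Perm (X (d + 1)))) ^ r) (EuclideanSpace.single 1 1) := by
  rw [vec_convPow, opr_thorp, pow_mul, round_eq]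

theorem tv_thorp_le (d r : ℕ) :
    (2 * tv (convPow (thorpLaw (2 ^ d)) ((d + 1) * r)) (unif (Perm (Fin (2 * 2 ^ d))))) ^ 2 ≤
      Fintype.card (Perm (X (d + 1))) *
        ‖(T (d + 1) (reg (Perm (X (d + 1)))) ^ r) (EuclideanSpace.single 1 1)‖ ^ 2 - 1 := by
  have h1 : tv (convPow (thorpLaw (2 ^ d)) ((d + 1) * r)) (unif (Perm (Fin (2 * 2 ^ d)))) =
      tv (convPow (thorpLaw (2 ^ d) ∘ tr d) ((d + 1) * r)) (unif (Perm (X (d + 1)))) := by
    rw [convPow_comp, ← tv_comp (tr d)]
    congr 1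
    funext σ
    simp only [unif, Function.comp_apply]
    rw [Fintype.card_congr (tr d).toEquiv]
  rw [h1, ← vec_thorp]
  apply tv_unif_le
  apply sum_convPow
  rw [← sum_thorpLaw (2 ^ d)]
  exact Fintype.sum_equiv (tr d).toEquiv _ _ fun x => rfl

/-- Upper bound for the mixing time from the regular representation. -/
theorem tmix_le (d r : ℕ)
    (h : Fintype.card (Perm (X (d + 1))) *
        ‖(T (d + 1) (reg (Perm (X (d + 1)))) ^ r) (EuclideanSpace.single 1 1)‖ ^ 2 - 1 ≤ 1 / 4) :
    tv (convPow (thorpLaw (2 ^ d)) ((d + 1) * r)) (unif (Perm (Fin (2 * 2 ^ d)))) ≤ 1 / 4 ∧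
      tmix (2 ^ d) ≤ (d + 1) * r := by
  have h1 := (tv_thorp_le d r).trans h
  have h2 : tv (convPow (thorpLaw (2 ^ d)) ((d + 1) * r)) (unif (Perm (Fin (2 * 2 ^ d)))) ≤
      1 / 4 := by
    nlinarith [h1]
  exact ⟨h2, Nat.sInf_le h2⟩

end Vale.Agent.P162.H72
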